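import Vale.Agent.P088.R2.H561.V.MeA
import Vale.Agent.P088.R2.H349.S4.SpecA

/-!
# P088, stage 4, row X-ME: functions in divergence form
-/

open MeasureTheory Set
open scoped ContDiff Matrix

noncomputable section

namespace Vale.Agent.P088.S4.H972

open Vale.Agent.P088.LR Vale.Agent.P088.LR.U Vale.Agent.P088.LR.H158
open Vale.Agent.P088.LR.U.H129 (smC_pdm smC_add smC_sub smC_sum smC_smul pdm_add pdm_sub)
open Vale.Agent.P088.PJ
open Vale.Agent.P088.PJ.H561 (fn nq_nonneg fn_nonneg fn_sq fn_mul fn_le)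

variable {n N : ℕ}

/-! ### `nq` -/

theorem nq_mul (A B : Matrix (Fin N) (Fin N) ℂ) : nq (A * B) ≤ nq A * nq B := by
  rw [← fn_sq, ← fn_sq, ← fn_sq, ← mul_pow]
  exact pow_le_pow_left₀ (fn_nonneg _) (fn_mul A B) 2

theorem nq_zero : nq (0 : Matrix (Fin N) (Fin N) ℂ) = 0 := by simp [nq]

theorem nq_smul (c : ℂ) (A : Matrix (Fin N) (Fin N) ℂ) : nq (c • A) = ‖c‖ ^ 2 * nq A := by
  unfold nq
  simp only [Matrix.smul_apply, smul_eq_mul, norm_mul, mul_pow, Finset.mul_sum]

theorem nq_rsmul (c : ℝ) (A : Matrix (Fin N) (Fin N) ℂ) : nq ((c : ℂ) • A) = c ^ 2 * nq A := by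
  rw [nq_smul, Complex.norm_real, Real.norm_eq_abs, sq_abs]

theorem nq_neg (A : Matrix (Fin N) (Fin N) ℂ) : nq (-A) = nq A := by
  unfold nq
  simp only [Matrix.neg_apply, norm_neg]

theorem nsq_sum {ι : Type*} (s : Finset ι) (f : ι → ℂ) :
    ‖∑ i ∈ s, f i‖ ^ 2 ≤ s.card * ∑ i ∈ s, ‖f i‖ ^ 2 := by
  have h1 : ‖∑ i ∈ s, f i‖ ^ 2 ≤ (∑ i ∈ s, ‖f i‖) ^ 2 :=
    pow_le_pow_left₀ (norm_nonneg _) (norm_sum_le _ _) 2
  exact h1.trans sq_sum_le_card_mul_sum_sq

theorem nq_sum {ι : Type*} (s : Finset ι) (A : ι → Matrix (Fin N) (Fin N) ℂ) :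
    nq (∑ i ∈ s, A i) ≤ s.card * ∑ i ∈ s, nq (A i) := by
  unfold nq
  have e : ∑ i ∈ s, ∑ a, ∑ b, ‖A i a b‖ ^ 2 = ∑ a, ∑ b, ∑ i ∈ s, ‖A i a b‖ ^ 2 := by
    rw [Finset.sum_comm]
    refine Finset.sum_congr rfl fun a _ => ?_
    rw [Finset.sum_comm]
  rw [e, Finset.mul_sum]
  refine Finset.sum_le_sum fun a _ => ?_
  rw [Finset.mul_sum]
  refine Finset.sum_le_sum fun b _ => ?_
  rw [Matrix.sum_apply]
  exact nsq_sum s fun i => A i a b

theorem nq_sumn (A : Fin n → Matrix (Fin N) (Fin N) ℂ) :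
    nq (∑ i, A i) ≤ n * ∑ i, nq (A i) := by
  have := nq_sum Finset.univ A
  rwa [Finset.card_univ, Fintype.card_fin] at this

theorem nq_add (A B : Matrix (Fin N) (Fin N) ℂ) : nq (A + B) ≤ 2 * (nq A + nq B) := by
  have h := nq_sum (Finset.univ : Finset Bool) (fun b => if b then A else B)
  simpa using h

theorem nq_sub (A B : Matrix (Fin N) (Fin N) ℂ) : nq (A - B) ≤ 2 * (nq A + nq B) := by
  have h := nq_add A (-B)
  rwa [nq_neg, ← sub_eq_add_neg] at h

/-! ### coefficients -/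

/-- A smooth coefficient, bounded with its first derivatives. -/
structure Tm (c : ℝ) (A : MC n N) : Prop where
  sm : SmC A
  b0 : ∀ x, nq (A x) ≤ c
  b1 : ∀ i x, nq (pdm i A x) ≤ c

theorem Tm.nn {c : ℝ} {A : MC n N} (h : Tm c A) : 0 ≤ c := (nq_nonneg _).trans (h.b0 0)

theorem Tm.mono {c c' : ℝ} {A : MC n N} (h : Tm c A) (hc : c ≤ c') : Tm c' A :=
  ⟨h.sm, fun x => (h.b0 x).trans hc, fun i x => (h.b1 i x).trans hc⟩

theorem Tm.mul {c c' : ℝ} {A B : MC n N} (hA : Tm c A) (hB : Tm c' B) :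
    Tm (4 * (c * c')) (fun x => A x * B x) := by
  have hc := hA.nn
  have hc' := hB.nn
  have hcc := mul_nonneg hc hc'
  refine ⟨SmC_mul hA.sm hB.sm, fun x => ?_, fun i x => ?_⟩
  · refine (nq_mul _ _).trans ((mul_le_mul (hA.b0 x) (hB.b0 x) (nq_nonneg _) hc).trans ?_)
    linarith
  · rw [pdm_mul hA.sm hB.sm]
    refine (nq_add _ _).trans ?_
    have h1 := (nq_mul (pdm i A x) (B x)).trans
      (mul_le_mul (hA.b1 i x) (hB.b0 x) (nq_nonneg _) hc)
    have h2 := (nq_mul (A x) (pdm i B x)).trans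
      (mul_le_mul (hA.b0 x) (hB.b1 i x) (nq_nonneg _) hc)
    linarith

theorem pd_ofReal {c : V n → ℝ} (hc : ContDiff ℝ ∞ c) (i : Fin n) (x : V n) :
    pd i (fun y => (c y : ℂ)) x = ((pd i c x : ℝ) : ℂ) :=
  pd_clm Complex.ofRealCLM (dfa hc x) i

theorem pdm_smul {c : V n → ℝ} (hc : ContDiff ℝ ∞ c) {P : MC n N} (hP : SmC P) (i : Fin n)
    (x : V n) : pdm i (fun y => (c y : ℂ) • P y) x =
      ((pd i c x : ℝ) : ℂ) • P x + (c x : ℂ) • pdm i P x := by
  have hc' : ContDiff ℝ ∞ (fun y => (c y : ℂ)) := Complex.ofRealCLM.contDiff.comp hc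
  ext a b
  simp only [pdm, Matrix.of_apply, Matrix.add_apply, Matrix.smul_apply, smul_eq_mul]
  rw [pd_mul (dfa hc' x) (dfa (hP a b) x), pd_ofReal hc]

theorem Tm.rsmul {c : ℝ} {A : MC n N} (hA : Tm c A) {r : V n → ℝ} (hr : ContDiff ℝ ∞ r)
    (h0 : ∀ x, |r x| ≤ 2) (h1 : ∀ i x, |pd i r x| ≤ 2) :
    Tm (16 * c) (fun x => (r x : ℂ) • A x) := by
  have hc := hA.nn
  have s0 : ∀ x, r x ^ 2 ≤ 4 := fun x => by
    rw [← sq_abs]
    nlinarith [h0 x, abs_nonneg (r x)]
  have s1 : ∀ i x, pd i r x ^ 2 ≤ 4 := fun i x => by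
    rw [← sq_abs]
    nlinarith [h1 i x, abs_nonneg (pd i r x)]
  refine ⟨smC_smul hr hA.sm, fun x => ?_, fun i x => ?_⟩
  · rw [nq_rsmul]
    have := mul_le_mul (s0 x) (hA.b0 x) (nq_nonneg _) (by norm_num)
    linarith
  · rw [pdm_smul hr hA.sm]
    refine (nq_add _ _).trans ?_
    rw [nq_rsmul, nq_rsmul]
    have g1 := mul_le_mul (s1 i x) (hA.b0 x) (nq_nonneg _) (by norm_num)
    have g2 := mul_le_mul (s0 x) (hA.b1 i x) (nq_nonneg _) (by norm_num)
    linarith

theorem Tm.of_clC {κ : ℝ} (hκ : 0 ≤ κ) {A : MC n N} (hA : SmC A) (h : ClC 1 κ A) :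
    Tm ((N * κ) ^ 2) A := by
  have e : ∀ B : Matrix (Fin N) (Fin N) ℂ, fn B ≤ N * κ → nq B ≤ (N * κ) ^ 2 := fun B hB => by
    rw [← fn_sq]
    exact pow_le_pow_left₀ (fn_nonneg _) hB 2
  exact ⟨hA, fun x => e _ (H561.fn_of_clC hκ h x),
    fun i x => e _ (H561.fn_of_clC hκ (H561.clC_pdm hA h i) x)⟩

/-! ### divergence form -/

/-- `X = ∑ ∂_j F_j + f` on `O` with `∑ |F_j|² + |f|² ≤ c U`. -/
def DF (O : Set (V n)) (U : V n → ℝ) (c : ℝ) (X : MC n N) : Prop :=
  ∃ (F : Fin n → MC n N) (f : MC n N), (∀ j, SmC (F j)) ∧ SmC f ∧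
    (∀ x ∈ O, X x = ∑ j, pdm j (F j) x + f x) ∧ ∀ x, (∑ j, nq (F j x)) + nq (f x) ≤ c * U x

variable {O : Set (V n)} {U : V n → ℝ}

theorem DF.mono {c c' : ℝ} {X : MC n N} (h : DF O U c X) (hU : ∀ x, 0 ≤ U x) (hc : c ≤ c') :
    DF O U c' X := by
  obtain ⟨F, f, h1, h2, h3, h4⟩ := h
  exact ⟨F, f, h1, h2, h3, fun x => (h4 x).trans (mul_le_mul_of_nonneg_right hc (hU x))⟩

theorem DF.congr {c : ℝ} {X X' : MC n N} (h : DF O U c X) (he : ∀ x ∈ O, X' x = X x) :
    DF O U c X' := by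
  obtain ⟨F, f, h1, h2, h3, h4⟩ := h
  exact ⟨F, f, h1, h2, fun x hx => (he x hx).trans (h3 x hx), h4⟩

theorem smC_zero : SmC fun _ : V n => (0 : Matrix (Fin N) (Fin N) ℂ) := fun _ _ => contDiff_const

theorem smC_neg {P : MC n N} (hP : SmC P) : SmC fun x => -P x := fun a b => (hP a b).neg

theorem pdm_neg {P : MC n N} (hP : SmC P) (i : Fin n) (x : V n) :
    pdm i (fun y => -P y) x = -pdm i P x := by
  have h := pdm_sub (smC_zero (n := n) (N := N)) hP i x
  rw [pdm_const, zero_sub] at h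
  rw [← h]
  congr 1
  funext y
  rw [zero_sub]

/-- A term of order zero. -/
theorem DF.zo {c : ℝ} {X : MC n N} (hX : SmC X) (h : ∀ x, nq (X x) ≤ c * U x) : DF O U c X := by
  refine ⟨fun _ _ => 0, X, fun _ => smC_zero, hX, fun x _ => ?_, fun x => ?_⟩
  · simp only [pdm_const, Finset.sum_const_zero, zero_add]
  · simp only [nq_zero, Finset.sum_const_zero, zero_add]
    exact h x

/-- A divergence. -/
theorem DF.div {c : ℝ} {F : Fin n → MC n N} (hF : ∀ j, SmC (F j))
    (h : ∀ x, ∑ j, nq (F j x) ≤ c * U x) : DF O U c (fun x => ∑ j, pdm j (F j) x) := by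
  refine ⟨F, fun _ => 0, hF, smC_zero, fun x _ => ?_, fun x => ?_⟩
  · rw [add_zero]
  · rw [nq_zero, add_zero]
    exact h x

/-- A derivative. -/
theorem DF.der {c : ℝ} {X : MC n N} (hX : SmC X) (h : ∀ x, nq (X x) ≤ c * U x) (i : Fin n) :
    DF O U c (pdm i X) := by
  have h1 := DF.div (O := O) (U := U) (c := c) (F := fun j => if j = i then X else fun _ => 0)
    (fun j => by split_ifs; exacts [hX, smC_zero]) (fun x => by
      have e : ∑ j, nq ((if j = i then X else fun _ => 0 : MC n N) x) = nq (X x) := by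
        rw [Finset.sum_eq_single i]
        · rw [if_pos rfl]
        · intro j _ hj
          rw [if_neg hj, nq_zero]
        · intro hi
          exact absurd (Finset.mem_univ i) hi
      rw [e]
      exact h x)
  refine h1.congr fun x _ => ?_
  rw [Finset.sum_eq_single i]
  · rw [if_pos rfl]
  · intro j _ hj
    rw [if_neg hj, pdm_const]
  · intro hi
    exact absurd (Finset.mem_univ i) hi

theorem DF.add {c c' : ℝ} {X X' : MC n N} (h : DF O U c X) (h' : DF O U c' X') :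
    DF O U (2 * (c + c')) (fun x => X x + X' x) := by
  obtain ⟨F, f, h1, h2, h3, h4⟩ := h
  obtain ⟨F', f', h1', h2', h3', h4'⟩ := h'
  refine ⟨fun j x => F j x + F' j x, fun x => f x + f' x, fun j => smC_add (h1 j) (h1' j),
    smC_add h2 h2', fun x hx => ?_, fun x => ?_⟩
  · beta_reduce
    rw [h3 x hx, h3' x hx]
    simp only [pdm_add (h1 _) (h1' _), Finset.sum_add_distrib]
    abel
  · have e1 : ∑ j, nq (F j x + F' j x) ≤ ∑ j, 2 * (nq (F j x) + nq (F' j x)) :=
      Finset.sum_le_sum fun j _ => nq_add _ _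
    rw [← Finset.mul_sum, Finset.sum_add_distrib] at e1
    have e2 := nq_add (f x) (f' x)
    have e3 := h4 x
    have e4 := h4' x
    show (∑ j, nq (F j x + F' j x)) + nq (f x + f' x) ≤ 2 * (c + c') * U x
    linarith

theorem DF.neg {c : ℝ} {X : MC n N} (h : DF O U c X) : DF O U c (fun x => -X x) := by
  obtain ⟨F, f, h1, h2, h3, h4⟩ := h
  refine ⟨fun j x => -F j x, fun x => -f x, fun j => smC_neg (h1 j), smC_neg h2,
    fun x hx => ?_, fun x => ?_⟩
  · beta_reduce
    rw [h3 x hx]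
    simp only [pdm_neg (h1 _), Finset.sum_neg_distrib]
    abel
  · simp only [nq_neg]
    exact h4 x

theorem DF.sub {c c' : ℝ} {X X' : MC n N} (h : DF O U c X) (h' : DF O U c' X') :
    DF O U (2 * (c + c')) (fun x => X x - X' x) := by
  have := h.add h'.neg
  simpa only [sub_eq_add_neg] using this

theorem smC_csmul (κ : ℂ) {P : MC n N} (hP : SmC P) : SmC fun x => κ • P x := fun a b => by
  simp only [Matrix.smul_apply, smul_eq_mul]
  exact contDiff_const.mul (hP a b)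

theorem pdm_csmul (κ : ℂ) {P : MC n N} (hP : SmC P) (i : Fin n) (x : V n) :
    pdm i (fun y => κ • P y) x = κ • pdm i P x := by
  ext a b
  simp only [pdm, Matrix.of_apply, Matrix.smul_apply, smul_eq_mul]
  rw [pd_mul (differentiableAt_const _) (dfa (hP a b) x), pd_const, zero_mul, zero_add]

theorem DF.csmul (κ : ℂ) {c : ℝ} {X : MC n N} (h : DF O U c X) :
    DF O U (‖κ‖ ^ 2 * c) (fun x => κ • X x) := by
  obtain ⟨F, f, h1, h2, h3, h4⟩ := h
  refine ⟨fun j x => κ • F j x, fun x => κ • f x, fun j => smC_csmul κ (h1 j), smC_csmul κ h2,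
    fun x hx => ?_, fun x => ?_⟩
  · beta_reduce
    rw [h3 x hx]
    simp only [pdm_csmul κ (h1 _), smul_add, Finset.smul_sum]
  · simp only [nq_smul, ← Finset.mul_sum]
    rw [← mul_add, mul_assoc]
    exact mul_le_mul_of_nonneg_left (h4 x) (sq_nonneg _)

theorem pdm_sum' {ι : Type*} (u : Finset ι) {P : ι → MC n N} (hP : ∀ j, SmC (P j)) (i : Fin n)
    (x : V n) : pdm i (fun y => ∑ j ∈ u, P j y) x = ∑ j ∈ u, pdm i (P j) x := by
  classical
  induction u using Finset.induction_on with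
  | empty => simp only [Finset.sum_empty, pdm_const]
  | insert a s ha ih =>
    simp only [Finset.sum_insert ha]
    rw [pdm_add (hP a) (smC_sum fun j _ => hP j), ih]

/-- Finite sums. -/
theorem DF.sum {c : ℝ} {X : Fin n → MC n N} (h : ∀ k, DF O U c (X k)) :
    DF O U (n ^ 2 * c) (fun x => ∑ k, X k x) := by
  choose F f h1 h2 h3 h4 using h
  refine ⟨fun j x => ∑ k, F k j x, fun x => ∑ k, f k x, fun j => smC_sum fun k _ => h1 k j,
    smC_sum fun k _ => h2 k, fun x hx => ?_, fun x => ?_⟩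
  · have e1 : ∑ k, X k x = ∑ k, (∑ j, pdm j (F k j) x + f k x) :=
      Finset.sum_congr rfl fun k _ => h3 k x hx
    have e2 : ∀ j, pdm j (fun y => ∑ k, F k j y) x = ∑ k, pdm j (F k j) x := fun j =>
      pdm_sum' _ (fun k => h1 k j) j x
    simp only [e2]
    rw [e1, Finset.sum_add_distrib, Finset.sum_comm]
  · have e1 : ∑ j, nq (∑ k, F k j x) ≤ ∑ j, n * ∑ k, nq (F k j x) :=
      Finset.sum_le_sum fun j _ => nq_sumn _
    rw [← Finset.mul_sum, Finset.sum_comm] at e1
    have e2 := nq_sumn fun k => f k x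
    have e3 : ∑ k, ((∑ j, nq (F k j x)) + nq (f k x)) ≤ ∑ _k : Fin n, c * U x :=
      Finset.sum_le_sum fun k _ => h4 k x
    rw [Finset.sum_add_distrib, Finset.sum_const, Finset.card_univ, Fintype.card_fin,
      nsmul_eq_mul] at e3
    have e4 := mul_le_mul_of_nonneg_left e3 (Nat.cast_nonneg (α := ℝ) n)
    show (∑ j, nq (∑ k, F k j x)) + nq (∑ k, f k x) ≤ n ^ 2 * c * U x
    have e5 : (n : ℝ) * (n * (c * U x)) = n ^ 2 * c * U x := by ring
    rw [e5, mul_add] at e4
    linarith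

/-- Multiplication by a coefficient from the left. -/
theorem DF.mulL {a c : ℝ} {A X : MC n N} (hA : Tm a A) (h : DF O U c X) :
    DF O U ((n + 2) * a * c) (fun x => A x * X x) := by
  obtain ⟨F, f, h1, h2, h3, h4⟩ := h
  have ha := hA.nn
  refine ⟨fun j x => A x * F j x, fun x => A x * f x - ∑ j, pdm j A x * F j x,
    fun j => SmC_mul hA.sm (h1 j), smC_sub (SmC_mul hA.sm h2)
      (smC_sum fun j _ => SmC_mul (smC_pdm hA.sm j) (h1 j)), fun x hx => ?_, fun x => ?_⟩
  · beta_reduce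
    rw [h3 x hx]
    simp only [pdm_mul hA.sm (h1 _), mul_add, Finset.mul_sum, Finset.sum_add_distrib]
    abel
  · have hn0 : (0 : ℝ) ≤ n := Nat.cast_nonneg n
    have e1 : ∑ j, nq (A x * F j x) ≤ a * ∑ j, nq (F j x) := by
      rw [Finset.mul_sum]
      exact Finset.sum_le_sum fun j _ => (nq_mul _ _).trans
        (mul_le_mul_of_nonneg_right (hA.b0 x) (nq_nonneg _))
    have e2 : nq (A x * f x - ∑ j, pdm j A x * F j x) ≤
        (n + 1) * (a * ((∑ j, nq (F j x)) + nq (f x))) := by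
      have g1 : A x * f x - ∑ j, pdm j A x * F j x =
          ∑ o : Option (Fin n), (match o with
            | none => A x * f x
            | some j => -(pdm j A x * F j x)) := by
        rw [Fintype.sum_option, Finset.sum_neg_distrib, sub_eq_add_neg]
      rw [g1]
      refine (nq_sum _ _).trans ?_
      rw [Finset.card_univ, Fintype.card_option, Fintype.card_fin, Fintype.sum_option]
      push_cast
      refine mul_le_mul_of_nonneg_left ?_ (by positivity)
      have k1 : nq (A x * f x) ≤ a * nq (f x) := (nq_mul _ _).trans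
        (mul_le_mul_of_nonneg_right (hA.b0 x) (nq_nonneg _))
      have k2 : ∑ j, nq (-(pdm j A x * F j x)) ≤ a * ∑ j, nq (F j x) := by
        rw [Finset.mul_sum]
        refine Finset.sum_le_sum fun j _ => ?_
        rw [nq_neg]
        exact (nq_mul _ _).trans (mul_le_mul_of_nonneg_right (hA.b1 j x) (nq_nonneg _))
      linarith
    have e3 := nq_nonneg (f x)
    have e4 : a * ∑ j, nq (F j x) ≤ a * ((∑ j, nq (F j x)) + nq (f x)) :=
      mul_le_mul_of_nonneg_left (by linarith) ha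
    have e5 : (n + 2) * (a * ((∑ j, nq (F j x)) + nq (f x))) ≤ (n + 2) * (a * (c * U x)) :=
      mul_le_mul_of_nonneg_left (mul_le_mul_of_nonneg_left (h4 x) ha) (by positivity)
    show (∑ j, nq (A x * F j x)) + nq (A x * f x - ∑ j, pdm j A x * F j x) ≤
      (n + 2) * a * c * U x
    linarith

/-- Multiplication by a coefficient from the right. -/
theorem DF.mulR {a c : ℝ} {A X : MC n N} (hA : Tm a A) (h : DF O U c X) :
    DF O U ((n + 2) * a * c) (fun x => X x * A x) := by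
  obtain ⟨F, f, h1, h2, h3, h4⟩ := h
  have ha := hA.nn
  refine ⟨fun j x => F j x * A x, fun x => f x * A x - ∑ j, F j x * pdm j A x,
    fun j => SmC_mul (h1 j) hA.sm, smC_sub (SmC_mul h2 hA.sm)
      (smC_sum fun j _ => SmC_mul (h1 j) (smC_pdm hA.sm j)), fun x hx => ?_, fun x => ?_⟩
  · beta_reduce
    rw [h3 x hx]
    simp only [pdm_mul (h1 _) hA.sm, add_mul, Finset.sum_mul, Finset.sum_add_distrib]
    abel
  · have hn0 : (0 : ℝ) ≤ n := Nat.cast_nonneg n
    have m1 : ∀ (X B : Matrix (Fin N) (Fin N) ℂ), nq B ≤ a → nq (X * B) ≤ a * nq X := by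
      intro X B hB
      refine (nq_mul _ _).trans ?_
      rw [mul_comm a]
      exact mul_le_mul_of_nonneg_left hB (nq_nonneg _)
    have e1 : ∑ j, nq (F j x * A x) ≤ a * ∑ j, nq (F j x) := by
      rw [Finset.mul_sum]
      exact Finset.sum_le_sum fun j _ => m1 _ _ (hA.b0 x)
    have e2 : nq (f x * A x - ∑ j, F j x * pdm j A x) ≤
        (n + 1) * (a * ((∑ j, nq (F j x)) + nq (f x))) := by
      have g1 : f x * A x - ∑ j, F j x * pdm j A x =
          ∑ o : Option (Fin n), (match o with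
            | none => f x * A x
            | some j => -(F j x * pdm j A x)) := by
        rw [Fintype.sum_option, Finset.sum_neg_distrib, sub_eq_add_neg]
      rw [g1]
      refine (nq_sum _ _).trans ?_
      rw [Finset.card_univ, Fintype.card_option, Fintype.card_fin, Fintype.sum_option]
      push_cast
      refine mul_le_mul_of_nonneg_left ?_ (by positivity)
      have k1 : nq (f x * A x) ≤ a * nq (f x) := m1 _ _ (hA.b0 x)
      have k2 : ∑ j, nq (-(F j x * pdm j A x)) ≤ a * ∑ j, nq (F j x) := by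
        rw [Finset.mul_sum]
        refine Finset.sum_le_sum fun j _ => ?_
        rw [nq_neg]
        exact m1 _ _ (hA.b1 j x)
      linarith
    have e3 := nq_nonneg (f x)
    have e4 : a * ∑ j, nq (F j x) ≤ a * ((∑ j, nq (F j x)) + nq (f x)) :=
      mul_le_mul_of_nonneg_left (by linarith) ha
    have e5 : (n + 2) * (a * ((∑ j, nq (F j x)) + nq (f x))) ≤ (n + 2) * (a * (c * U x)) :=
      mul_le_mul_of_nonneg_left (mul_le_mul_of_nonneg_left (h4 x) ha) (by positivity)
    show (∑ j, nq (F j x * A x)) + nq (f x * A x - ∑ j, F j x * pdm j A x) ≤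
      (n + 2) * a * c * U x
    linarith

end Vale.Agent.P088.S4.H972
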