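import Vale.Agent.P088.R2.H349.S4.SpecA

/-!
# P088, stage 4, row X-ME: weighted energy estimate, dual test
-/

open MeasureTheory Set
open scoped ContDiff Matrix

noncomputable section

namespace Vale.Agent.P088.S4.H972

open Vale.Agent.P088.LR Vale.Agent.P088.R2.H404

variable {n : ℕ} {O : Set (V n)}

/-! ### algebra -/

/-- `|∇f|²`. -/
def gq (f : V n → ℝ) (x : V n) : ℝ := ∑ i, LR.pd i f x ^ 2

theorem gq_nn (f : V n → ℝ) (x : V n) : 0 ≤ gq f x := Finset.sum_nonneg fun _ _ => sq_nonneg _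

/-- Cauchy-Schwarz for a double sum. -/
theorem cs2 (e : Fin n → Fin n → ℝ) (a b : Fin n → ℝ) :
    (∑ i, ∑ j, e i j * (a i * b j)) ^ 2 ≤ (∑ i, ∑ j, e i j ^ 2) * ((∑ i, a i ^ 2) * ∑ j, b j ^ 2) := by
  have h := Finset.sum_mul_sq_le_sq_mul_sq (Finset.univ : Finset (Fin n × Fin n))
    (fun p => e p.1 p.2) (fun p => a p.1 * b p.2)
  rw [Fintype.sum_prod_type, Fintype.sum_prod_type, Fintype.sum_prod_type] at h
  refine h.trans (le_of_eq ?_)
  congr 1
  rw [Finset.sum_mul_sum]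
  exact Finset.sum_congr rfl fun i _ => Finset.sum_congr rfl fun j _ => by ring

/-- The size of `s - 1`. -/
theorem esum {s : Matrix (Fin n) (Fin n) ℝ} (h : ∀ i j, |s i j - (1 : Matrix (Fin n) (Fin n) ℝ) i j| ≤
    1 / (8 * (n + 1))) : ∑ i, ∑ j, (s i j - (1 : Matrix (Fin n) (Fin n) ℝ) i j) ^ 2 ≤ 1 / 64 := by
  calc ∑ i, ∑ j, (s i j - (1 : Matrix (Fin n) (Fin n) ℝ) i j) ^ 2
      ≤ ∑ _i : Fin n, ∑ _j : Fin n, (1 / (8 * ((n : ℝ) + 1))) ^ 2 := by
        refine Finset.sum_le_sum fun i _ => Finset.sum_le_sum fun j _ => ?_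
        rw [← sq_abs]
        exact pow_le_pow_left₀ (abs_nonneg _) (h i j) 2
    _ = n * (n * (1 / (8 * ((n : ℝ) + 1))) ^ 2) := by simp
    _ ≤ 1 / 64 := by
        have hn : (0 : ℝ) ≤ n := Nat.cast_nonneg n
        rw [div_pow, one_pow, mul_one_div, mul_div_assoc', div_le_div_iff₀ (by positivity) (by norm_num)]
        nlinarith

theorem sum_one (a b : Fin n → ℝ) :
    ∑ i, ∑ j, (1 : Matrix (Fin n) (Fin n) ℝ) i j * (a i * b j) = ∑ i, a i * b i := by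
  refine Finset.sum_congr rfl fun i _ => ?_
  simp [Matrix.one_apply]

theorem split1 (s : Matrix (Fin n) (Fin n) ℝ) (a b : Fin n → ℝ) :
    ∑ i, ∑ j, s i j * (a i * b j) = (∑ i, a i * b i) +
      ∑ i, ∑ j, (s i j - (1 : Matrix (Fin n) (Fin n) ℝ) i j) * (a i * b j) := by
  rw [← sum_one a b, ← Finset.sum_add_distrib]
  refine Finset.sum_congr rfl fun i _ => ?_
  rw [← Finset.sum_add_distrib]
  exact Finset.sum_congr rfl fun j _ => by ring

/-- ellipticity -/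
theorem ell {s : Matrix (Fin n) (Fin n) ℝ} (h : ∀ i j, |s i j - (1 : Matrix (Fin n) (Fin n) ℝ) i j| ≤
    1 / (8 * (n + 1))) (a : Fin n → ℝ) :
    1 / 2 * ∑ i, a i ^ 2 ≤ ∑ i, ∑ j, s i j * (a i * a j) := by
  rw [split1]
  have h1 := cs2 (fun i j => s i j - (1 : Matrix (Fin n) (Fin n) ℝ) i j) a a
  have h2 := esum h
  have h3 : 0 ≤ ∑ i, a i ^ 2 := Finset.sum_nonneg fun _ _ => sq_nonneg _
  have h4 : (∑ i, ∑ j, (s i j - (1 : Matrix (Fin n) (Fin n) ℝ) i j) * (a i * a j)) ^ 2 ≤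
      (1 / 2 * ∑ i, a i ^ 2) ^ 2 := by
    refine h1.trans ?_
    nlinarith [mul_nonneg h3 h3, mul_le_mul_of_nonneg_right h2 (mul_nonneg h3 h3)]
  have h5 := abs_le_of_sq_le_sq h4 (by positivity)
  have h6 := neg_le_of_abs_le h5
  have h7 : ∑ i, a i * a i = ∑ i, a i ^ 2 := Finset.sum_congr rfl fun i _ => by ring
  rw [h7]
  linarith

theorem elb {s : Matrix (Fin n) (Fin n) ℝ} (h : ∀ i j, |s i j - (1 : Matrix (Fin n) (Fin n) ℝ) i j| ≤
    1 / (8 * (n + 1))) (a b : Fin n → ℝ) :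
    (∑ i, ∑ j, s i j * (a i * b j)) ^ 2 ≤ 4 * ((∑ i, a i ^ 2) * ∑ j, b j ^ 2) := by
  rw [split1]
  have h1 := cs2 (fun i j => s i j - (1 : Matrix (Fin n) (Fin n) ℝ) i j) a b
  have h2 := esum h
  have h3 : 0 ≤ ∑ i, a i ^ 2 := Finset.sum_nonneg fun _ _ => sq_nonneg _
  have h3' : 0 ≤ ∑ i, b i ^ 2 := Finset.sum_nonneg fun _ _ => sq_nonneg _
  have h4 := Finset.sum_mul_sq_le_sq_mul_sq Finset.univ a b
  have h5 := mul_le_mul_of_nonneg_right h2 (mul_nonneg h3 h3')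
  have h6 := mul_nonneg h3 h3'
  nlinarith [sq_nonneg ((∑ i, a i * b i) -
    ∑ i, ∑ j, (s i j - (1 : Matrix (Fin n) (Fin n) ℝ) i j) * (a i * b j))]

/-- `∑_i (s∇f)_i ∂_i h` as a double sum. -/
theorem fl_sum (s : MF n) (f h : V n → ℝ) (x : V n) :
    ∑ i, fl s f i x * LR.pd i h x = ∑ i, ∑ j, s x i j * (LR.pd i h x * LR.pd j f x) := by
  unfold fl
  refine Finset.sum_congr rfl fun i _ => ?_
  rw [Finset.sum_mul]
  exact Finset.sum_congr rfl fun j _ => by ring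

theorem fl_symm {s : MF n} {x : V n} (hs : ∀ i j, s x i j = s x j i) (f h : V n → ℝ) :
    ∑ i, fl s f i x * LR.pd i h x = ∑ i, fl s h i x * LR.pd i f x := by
  rw [fl_sum, fl_sum, Finset.sum_comm]
  refine Finset.sum_congr rfl fun i _ => Finset.sum_congr rfl fun j _ => ?_
  rw [hs j i]
  ring

/-! ### the energy -/

theorem gq_cdo (hO : IsOpen O) {f : V n → ℝ} (hf : ContDiffOn ℝ ∞ f O) :
    ContDiffOn ℝ ∞ (gq f) O := ContDiffOn.sum fun i _ => (pd_cdo hO hf i).pow 2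

theorem gq_TO (hO : IsOpen O) {f : V n → ℝ} (hf : TO O f) : TO O (gq f) := by
  have h : TO O fun x => ∑ i, LR.pd i f x * LR.pd i f x :=
    TO.sum _ fun i _ => TO.mul hO (hf.pd i).con (hf.pd i)
  have e : gq f = fun x => ∑ i, LR.pd i f x * LR.pd i f x := by
    funext x
    unfold gq
    exact Finset.sum_congr rfl fun i _ => sq _
  rw [e]
  exact h

/-- `∑ (s∇f)_i ∂_i h` is smooth. -/
theorem fls_cdo (hO : IsOpen O) {s : MF n} (hs : SmO O s) {f h : V n → ℝ}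
    (hf : ContDiffOn ℝ ∞ f O) (hh : ContDiffOn ℝ ∞ h O) :
    ContDiffOn ℝ ∞ (fun x => ∑ i, fl s f i x * LR.pd i h x) O :=
  ContDiffOn.sum fun i _ => (fl_cdo hO hs hf i).mul (pd_cdo hO hh i)

theorem fls_TO (hO : IsOpen O) {s : MF n} (hs : SmO O s) {f h : V n → ℝ}
    (hf : ContDiffOn ℝ ∞ f O) (hh : TO O h) :
    TO O (fun x => ∑ i, fl s f i x * LR.pd i h x) :=
  TO.sum _ fun i _ => TO.mul hO (fl_cdo hO hs hf i) (hh.pd i)

/-- The energy identity. -/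
theorem en_id (hO : IsOpen O) {s : MF n} (hs : SmO O s) {ζ w : V n → ℝ} (hζ : TO O ζ)
    (hw : ContDiffOn ℝ ∞ w O) :
    ∫ x, ((∑ i, fl s w i x * LR.pd i w x) * (ζ x * ζ x) +
      2 * ((w x * ζ x) * ∑ i, fl s w i x * LR.pd i ζ x) +
      (w x * Ld s w x) * (ζ x * ζ x)) = 0 := by
  have hzz : TO O fun x => ζ x * ζ x := TO.mul hO hζ.con hζ
  have hF : ∀ i, TO O fun x => (w x * fl s w i x) * (ζ x * ζ x) := fun i =>
    TO.mul hO (hw.mul (fl_cdo hO hs hw i)) hzz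
  have t1 : TO O fun x => (∑ i, fl s w i x * LR.pd i w x) * (ζ x * ζ x) :=
    TO.mul hO (fls_cdo hO hs hw hw) hzz
  have t2 : TO O fun x => 2 * ((w x * ζ x) * ∑ i, fl s w i x * LR.pd i ζ x) :=
    (TO.mul hO (hw.mul hζ.con) (fls_TO hO hs hw hζ)).const_mul 2
  have t3 : TO O fun x => (w x * Ld s w x) * (ζ x * ζ x) :=
    TO.mul hO (hw.mul (Ld_cdo hO hs hw)) hzz
  have t : TO O fun x => (∑ i, fl s w i x * LR.pd i w x) * (ζ x * ζ x) +
      2 * ((w x * ζ x) * ∑ i, fl s w i x * LR.pd i ζ x) +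
      (w x * Ld s w x) * (ζ x * ζ x) := (t1.add t2).add t3
  have hS : TO O fun x => ∑ i, LR.pd i (fun y => (w y * fl s w i y) * (ζ y * ζ y)) x :=
    TO.sum _ fun i _ => (hF i).pd i
  have e : ∀ x, (∑ i, fl s w i x * LR.pd i w x) * (ζ x * ζ x) +
      2 * ((w x * ζ x) * ∑ i, fl s w i x * LR.pd i ζ x) +
      (w x * Ld s w x) * (ζ x * ζ x) =
      ∑ i, LR.pd i (fun y => (w y * fl s w i y) * (ζ y * ζ y)) x := by
    refine TO.congr_all t hS fun x hx => ?_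
    have h1 : ∀ i, LR.pd i (fun y => (w y * fl s w i y) * (ζ y * ζ y)) x =
        fl s w i x * LR.pd i w x * (ζ x * ζ x) + w x * LR.pd i (fl s w i) x * (ζ x * ζ x) +
        2 * ((w x * ζ x) * (fl s w i x * LR.pd i ζ x)) := by
      intro i
      rw [pd_mul' hO (hw.mul (fl_cdo hO hs hw i)) hzz.con hx i,
        pd_mul' hO hw (fl_cdo hO hs hw i) hx i, pd_mul' hO hζ.con hζ.con hx i]
      ring
    simp only [h1, Finset.sum_add_distrib]
    unfold Ld
    simp only [Finset.mul_sum, Finset.sum_mul]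
    ring
  simp only [e]
  rw [integral_finsetSum _ fun i _ => ((hF i).pd i).integrable]
  exact Finset.sum_eq_zero fun i _ => int_pd (hF i) i

/-- The entries of `s` are close to the unit matrix. -/
def Nr (O : Set (V n)) (s : MF n) : Prop :=
  ∀ x ∈ O, ∀ i j, |s x i j - (1 : Matrix (Fin n) (Fin n) ℝ) i j| ≤ 1 / (8 * (n + 1))

/-- **Caccioppoli inequality**, divergence form. -/
theorem cac (hO : IsOpen O) {s : MF n} (hs : SmO O s) (hn : Nr O s) {ζ w : V n → ℝ} (hζ : TO O ζ)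
    (hw : ContDiffOn ℝ ∞ w O) {A : ℝ} (hA : 0 < A) :
    ∫ x, gq w x * (ζ x * ζ x) ≤ ∫ x, (64 * ((w x * w x) * gq ζ x) +
      2 * A * ((w x * w x) * (ζ x * ζ x)) + 2 * A⁻¹ * ((Ld s w x * Ld s w x) * (ζ x * ζ x))) := by
  have hzz : TO O fun x => ζ x * ζ x := TO.mul hO hζ.con hζ
  have hL := Ld_cdo hO hs hw
  have t0 : TO O fun x => gq w x * (ζ x * ζ x) := TO.mul hO (gq_cdo hO hw) hzz
  have t4 : TO O fun x => 64 * ((w x * w x) * gq ζ x) +
      2 * A * ((w x * w x) * (ζ x * ζ x)) + 2 * A⁻¹ * ((Ld s w x * Ld s w x) * (ζ x * ζ x)) :=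
    (((TO.mul hO (hw.mul hw) (gq_TO hO hζ)).const_mul 64).add
      ((TO.mul hO (hw.mul hw) hzz).const_mul (2 * A))).add
      ((TO.mul hO (hL.mul hL) hzz).const_mul (2 * A⁻¹))
  have t1 : TO O fun x => (∑ i, fl s w i x * LR.pd i w x) * (ζ x * ζ x) :=
    TO.mul hO (fls_cdo hO hs hw hw) hzz
  have t2 : TO O fun x => 2 * ((w x * ζ x) * ∑ i, fl s w i x * LR.pd i ζ x) :=
    (TO.mul hO (hw.mul hζ.con) (fls_TO hO hs hw hζ)).const_mul 2
  have t3 : TO O fun x => (w x * Ld s w x) * (ζ x * ζ x) :=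
    TO.mul hO (hw.mul (Ld_cdo hO hs hw)) hzz
  have t : TO O fun x => (∑ i, fl s w i x * LR.pd i w x) * (ζ x * ζ x) +
      2 * ((w x * ζ x) * ∑ i, fl s w i x * LR.pd i ζ x) +
      (w x * Ld s w x) * (ζ x * ζ x) := (t1.add t2).add t3
  have h1 : ∫ x, gq w x * (ζ x * ζ x) ≤ ∫ x, ((64 * ((w x * w x) * gq ζ x) +
      2 * A * ((w x * w x) * (ζ x * ζ x)) + 2 * A⁻¹ * ((Ld s w x * Ld s w x) * (ζ x * ζ x))) +
      4 * ((∑ i, fl s w i x * LR.pd i w x) * (ζ x * ζ x) +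
      2 * ((w x * ζ x) * ∑ i, fl s w i x * LR.pd i ζ x) +
      (w x * Ld s w x) * (ζ x * ζ x))) := by
    refine integral_mono t0.integrable (t4.integrable.add (t.integrable.const_mul 4)) fun x => ?_
    by_cases hx : x ∈ O
    · have e1 := ell (hn x hx) (fun i => LR.pd i w x)
      have e2 := elb (hn x hx) (fun i => LR.pd i ζ x) (fun i => LR.pd i w x)
      have g1 : ∑ i, LR.pd i w x ^ 2 = gq w x := rfl
      have g2 : ∑ i, LR.pd i ζ x ^ 2 = gq ζ x := rfl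
      have g3 := fl_sum s w w x
      have g4 := fl_sum s w ζ x
      rw [g1, ← g3] at e1
      rw [g1, g2, ← g4] at e2
      set E := ∑ i, fl s w i x * LR.pd i w x
      set T := ∑ i, fl s w i x * LR.pd i ζ x
      set L := Ld s w x
      have n1 := gq_nn w x
      have n2 := gq_nn ζ x
      have p1 : |8 * (w x * ζ x) * T| ≤ gq w x * (ζ x * ζ x) + 64 * ((w x * w x) * gq ζ x) := by
        have n3 : 0 ≤ gq w x * (ζ x * ζ x) := mul_nonneg n1 (mul_self_nonneg _)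
        have n4 : 0 ≤ (w x * w x) * gq ζ x := mul_nonneg (mul_self_nonneg _) n2
        refine abs_le_of_sq_le_sq ?_ (by positivity)
        have q1 : (w x * ζ x) ^ 2 * T ^ 2 ≤ (w x * ζ x) ^ 2 * (4 * (gq ζ x * gq w x)) :=
          mul_le_mul_of_nonneg_left e2 (sq_nonneg _)
        nlinarith [sq_nonneg (gq w x * (ζ x * ζ x) - 64 * ((w x * w x) * gq ζ x))]
      have p2 : -(4 * ((w x * L) * (ζ x * ζ x))) ≤ 2 * A * ((w x * w x) * (ζ x * ζ x)) +
          2 * A⁻¹ * ((L * L) * (ζ x * ζ x)) := by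
        have q2 : 0 ≤ 2 * A⁻¹ * (ζ x * (A * w x + L)) ^ 2 := by positivity
        have q3 : 2 * A⁻¹ * (ζ x * (A * w x + L)) ^ 2 = 2 * A * ((w x * w x) * (ζ x * ζ x)) +
          2 * A⁻¹ * ((L * L) * (ζ x * ζ x)) + 4 * ((w x * L) * (ζ x * ζ x)) := by
          field_simp
          ring
        linarith
      have p3 := neg_le_of_abs_le p1
      have p4 : (ζ x * ζ x) * (1 / 2 * gq w x) ≤ (ζ x * ζ x) * E :=
        mul_le_mul_of_nonneg_left e1 (mul_self_nonneg _)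
      show gq w x * (ζ x * ζ x) ≤ (64 * ((w x * w x) * gq ζ x) +
        2 * A * ((w x * w x) * (ζ x * ζ x)) + 2 * A⁻¹ * ((L * L) * (ζ x * ζ x))) +
        4 * (E * (ζ x * ζ x) + 2 * ((w x * ζ x) * T) + (w x * L) * (ζ x * ζ x))
      linarith
    · have z1 := t0.zero hx
      have z2 := t4.zero hx
      have z3 := t.zero hx
      beta_reduce at z1 z2 z3 ⊢
      rw [z1, z2, z3]
      norm_num
  rw [integral_add t4.integrable (t.integrable.const_mul 4), integral_const_mul,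
    en_id hO hs hζ hw] at h1
  linarith

end Vale.Agent.P088.S4.H972
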