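import Vale.Agent.P088.R2.H972.XME.Test

/-!
# P088, stage 4, row X-ME: the dual test theorem
-/

open MeasureTheory Set
open scoped ContDiff Matrix

noncomputable section

namespace Vale.Agent.P088.S4.H972

open Vale.Agent.P088.LR Vale.Agent.P088.R2.H404

variable {n : ℕ} {O : Set (V n)}

section CCf

variable {B : Set (V n)} {ρ : ℝ} {χ χ₁ χ₂ : V n → ℝ}

theorem CC_sub1 (h : CC O B ρ χ χ₁ χ₂) : tsupport χ ⊆ tsupport χ₁ := fun x hx =>
  subset_tsupport _ (by rw [Function.mem_support, h.i1 x hx]; exact one_ne_zero)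

theorem CC_sub2 (h : CC O B ρ χ χ₁ χ₂) : tsupport χ₁ ⊆ tsupport χ₂ := fun x hx =>
  subset_tsupport _ (by rw [Function.mem_support, h.i2 x hx]; exact one_ne_zero)

theorem CC_t2 (h : CC O B ρ χ χ₁ χ₂) : TO O χ₂ := ⟨h.s2, h.c2, h.o2⟩

theorem CC_t1 (h : CC O B ρ χ χ₁ χ₂) : TO O χ₁ :=
  ⟨h.s1, h.c2.of_isClosed_subset (isClosed_tsupport _) (CC_sub2 h), (CC_sub2 h).trans h.o2⟩

theorem CC_t0 (h : CC O B ρ χ χ₁ χ₂) : TO O χ :=
  ⟨h.s0, (CC_t1 h).cs.of_isClosed_subset (isClosed_tsupport _) (CC_sub1 h),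
    (CC_sub1 h).trans (CC_t1 h).ts⟩

theorem CC_BO (h : CC O B ρ χ χ₁ χ₂) : B ⊆ O := h.bB.trans (CC_t0 h).ts

theorem CC_intB (h : CC O B ρ χ χ₁ χ₂) {f : V n → ℝ} (hf : ContinuousOn f O) :
    IntegrableOn f B :=
  ((hf.mono (CC_t0 h).ts).integrableOn_compact (CC_t0 h).cs).mono_set h.bB

end CCf

/-- The pointwise estimate of the integrand. -/
theorem pt_bd (hO : IsOpen O) {s : MF n} (hs : SmO O s) (hn : Nr O s)
    (hs1 : ∀ x ∈ O, ∀ k i j, |LR.pd k (fun y => s y i j) x| ≤ 1) {B : Set (V n)} {ρ : ℝ}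
    (hρ : 1 ≤ ρ) {χ χ₁ χ₂ : V n → ℝ} (hC : CC O B ρ χ χ₁ χ₂) (μ z f : V n → ℝ)
    (F : Fin n → V n → ℝ) {t₁ t₂ : ℝ} (ht₁ : 0 < t₁) (ht₂ : 0 < t₂) {x : V n} (hx : x ∈ O)
    {E E' : ℝ} (hE : 0 < E) (hE' : 0 < E') (hEE : E * E' = 1) :
    (z x * f x) * χ x - (∑ i, F i x * LR.pd i z x) * χ x -
      2 * (μ x * ∑ i, fl s z i x * LR.pd i χ x) - z x * (∑ i, F i x * LR.pd i χ x) -
      (z x * μ x) * Ld s χ x ≤
    (1 / 2 * t₁ * ((E * ((∑ j, F j x ^ 2) + f x ^ 2)) * (χ x * χ x)) +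
      B.indicator (fun x => t₂ * (E * ((∑ j, F j x ^ 2) + μ x ^ 2))) x) +
    ((1 / 2 * t₁⁻¹ + 1 / 2 * t₂⁻¹ * (n * ρ ^ 2 + 9 * n ^ 4 * ρ ^ 4)) * (z x ^ 2 * E') +
      (1 / 2 * t₁⁻¹ + 1 / 2 * t₂⁻¹ * (16 * n * ρ ^ 2)) * (gq z x * (E' * (χ₁ x * χ₁ x)))) := by
  have hρ0 : 0 < ρ := by linarith
  have hχ := CC_t0 hC
  have hFF : 0 ≤ ∑ j, F j x ^ 2 := Finset.sum_nonneg fun _ _ => sq_nonneg _
  have hind : 0 ≤ B.indicator (fun x => t₂ * (E * ((∑ j, F j x ^ 2) + μ x ^ 2))) x := by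
    refine indicator_nonneg (fun y _ => ?_) x
    have : 0 ≤ ∑ j, F j y ^ 2 := Finset.sum_nonneg fun _ _ => sq_nonneg _
    positivity
  have hgz := gq_nn z x
  have n1 : 0 ≤ 1 / 2 * t₁ * ((E * ((∑ j, F j x ^ 2) + f x ^ 2)) * (χ x * χ x)) := by
    have := mul_self_nonneg (χ x)
    positivity
  have n2 : 0 ≤ (1 / 2 * t₁⁻¹ + 1 / 2 * t₂⁻¹ * (n * ρ ^ 2 + 9 * n ^ 4 * ρ ^ 4)) *
      (z x ^ 2 * E') := by positivity
  have n3 : 0 ≤ (1 / 2 * t₁⁻¹ + 1 / 2 * t₂⁻¹ * (16 * n * ρ ^ 2)) *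
      (gq z x * (E' * (χ₁ x * χ₁ x))) := by
    have := mul_self_nonneg (χ₁ x)
    positivity
  by_cases hxs : x ∈ tsupport χ
  · have hχ1 : χ₁ x = 1 := hC.i1 x hxs
    -- the two terms without derivatives of the cut-off
    have y1 : (z x * f x) * χ x ≤ 1 / 2 * (t₁ * ((f x * χ x) ^ 2 * E)) +
        1 / 2 * (t₁⁻¹ * (z x ^ 2 * E')) := by
      have := young (a := f x * χ x) (b := z x) ht₁ hE hEE
      linarith
    have y2 : -((∑ i, F i x * LR.pd i z x) * χ x) ≤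
        1 / 2 * (t₁ * ((∑ i, F i x ^ 2) * (χ x * χ x) * E)) + 1 / 2 * (t₁⁻¹ * (gq z x * E')) := by
      have h1 : ∀ i, -(F i x * χ x * LR.pd i z x) ≤ 1 / 2 * (t₁ * ((F i x * χ x) ^ 2 * E)) +
          1 / 2 * (t₁⁻¹ * (LR.pd i z x ^ 2 * E')) := by
        intro i
        have := young (a := -(F i x * χ x)) (b := LR.pd i z x) ht₁ hE hEE
        rw [neg_sq] at this
        linarith
      have h2 := Finset.sum_le_sum fun i (_ : i ∈ Finset.univ) => h1 i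
      rw [Finset.sum_add_distrib] at h2
      have e1 : ∑ i, -(F i x * χ x * LR.pd i z x) = -((∑ i, F i x * LR.pd i z x) * χ x) := by
        rw [Finset.sum_neg_distrib, Finset.sum_mul]
        congr 1
        exact Finset.sum_congr rfl fun i _ => by ring
      have e2 : ∑ i, 1 / 2 * (t₁ * ((F i x * χ x) ^ 2 * E)) =
          1 / 2 * (t₁ * ((∑ i, F i x ^ 2) * (χ x * χ x) * E)) := by
        simp only [Finset.sum_mul, Finset.mul_sum]
        exact Finset.sum_congr rfl fun i _ => by ring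
      have e3 : ∑ i, 1 / 2 * (t₁⁻¹ * (LR.pd i z x ^ 2 * E')) =
          1 / 2 * (t₁⁻¹ * (gq z x * E')) := by
        unfold gq
        simp only [Finset.sum_mul, Finset.mul_sum]
      rw [e1, e2, e3] at h2
      exact h2
    by_cases hxB : x ∈ B
    · have hgχ : gq χ x ≤ n * ρ ^ 2 := gq_le fun i => hC.d0 i x
      have y3 : -(2 * (μ x * ∑ i, fl s z i x * LR.pd i χ x)) ≤ 1 / 2 * (t₂ * (μ x ^ 2 * E)) +
          1 / 2 * (t₂⁻¹ * ((16 * n * ρ ^ 2 * gq z x) * E')) := by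
        have h1 := young (a := μ x) (b := -(2 * ∑ i, fl s z i x * LR.pd i χ x)) ht₂ hE hEE
        have h2 := elb (hn x hx) (fun i => LR.pd i χ x) (fun i => LR.pd i z x)
        have g1 : ∑ i, LR.pd i χ x ^ 2 = gq χ x := rfl
        have g2 : ∑ i, LR.pd i z x ^ 2 = gq z x := rfl
        rw [g1, g2, ← fl_sum s z χ x] at h2
        have h3 : gq χ x * gq z x ≤ (n * ρ ^ 2) * gq z x := mul_le_mul_of_nonneg_right hgχ hgz
        have h4 : (-(2 * ∑ i, fl s z i x * LR.pd i χ x)) ^ 2 ≤ 16 * n * ρ ^ 2 * gq z x := by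
          rw [neg_sq, mul_pow]
          linarith
        have h5 : t₂⁻¹ * ((-(2 * ∑ i, fl s z i x * LR.pd i χ x)) ^ 2 * E') ≤
            t₂⁻¹ * ((16 * n * ρ ^ 2 * gq z x) * E') :=
          mul_le_mul_of_nonneg_left (mul_le_mul_of_nonneg_right h4 hE'.le) (inv_pos.2 ht₂).le
        linarith
      have y4 : -(z x * (∑ i, F i x * LR.pd i χ x)) ≤ 1 / 2 * (t₂ * ((∑ i, F i x ^ 2) * E)) +
          1 / 2 * (t₂⁻¹ * ((n * ρ ^ 2 * z x ^ 2) * E')) := by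
        have h1 : ∀ i, -(z x * (F i x * LR.pd i χ x)) ≤ 1 / 2 * (t₂ * (F i x ^ 2 * E)) +
            1 / 2 * (t₂⁻¹ * ((z x ^ 2 * LR.pd i χ x ^ 2) * E')) := by
          intro i
          have := young (a := F i x) (b := -(z x * LR.pd i χ x)) ht₂ hE hEE
          rw [neg_sq, mul_pow] at this
          linarith
        have h2 := Finset.sum_le_sum fun i (_ : i ∈ Finset.univ) => h1 i
        rw [Finset.sum_add_distrib] at h2
        have e1 : ∑ i, -(z x * (F i x * LR.pd i χ x)) = -(z x * (∑ i, F i x * LR.pd i χ x)) := by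
          rw [Finset.sum_neg_distrib, Finset.mul_sum]
        have e2 : ∑ i, 1 / 2 * (t₂ * (F i x ^ 2 * E)) =
            1 / 2 * (t₂ * ((∑ i, F i x ^ 2) * E)) := by
          simp only [Finset.sum_mul, Finset.mul_sum]
        have e3 : ∑ i, 1 / 2 * (t₂⁻¹ * ((z x ^ 2 * LR.pd i χ x ^ 2) * E')) =
            1 / 2 * (t₂⁻¹ * ((z x ^ 2 * gq χ x) * E')) := by
          unfold gq
          simp only [Finset.sum_mul, Finset.mul_sum]
        rw [e1, e2, e3] at h2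
        have h5 : t₂⁻¹ * ((z x ^ 2 * gq χ x) * E') ≤ t₂⁻¹ * ((n * ρ ^ 2 * z x ^ 2) * E') := by
          refine mul_le_mul_of_nonneg_left (mul_le_mul_of_nonneg_right ?_ hE'.le)
            (inv_pos.2 ht₂).le
          have := mul_le_mul_of_nonneg_left hgχ (sq_nonneg (z x))
          linarith
        linarith
      have y5 : -((z x * μ x) * Ld s χ x) ≤ 1 / 2 * (t₂ * (μ x ^ 2 * E)) +
          1 / 2 * (t₂⁻¹ * ((9 * n ^ 4 * ρ ^ 4 * z x ^ 2) * E')) := by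
        have h1 := young (a := μ x) (b := -(z x * Ld s χ x)) ht₂ hE hEE
        rw [neg_sq, mul_pow] at h1
        have h2 : |Ld s χ x| ≤ 3 * n ^ 2 * ρ ^ 2 := by
          refine Ld_bd hO hs hχ hρ hx (fun i j => ?_) (hs1 x hx) (fun k => hC.d0 k x)
            (fun k l => hC.dd k l x)
          refine S_le le_rfl (fun i j => (hn x hx i j).trans ?_) i j
          rw [div_le_one (by positivity)]
          have : (0 : ℝ) ≤ n := Nat.cast_nonneg n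
          linarith
        have h3 : Ld s χ x ^ 2 ≤ 9 * n ^ 4 * ρ ^ 4 := by
          rw [← sq_abs]
          have := pow_le_pow_left₀ (abs_nonneg _) h2 2
          calc _ ≤ _ := this
            _ = _ := by ring
        have h5 : t₂⁻¹ * ((z x ^ 2 * Ld s χ x ^ 2) * E') ≤
            t₂⁻¹ * ((9 * n ^ 4 * ρ ^ 4 * z x ^ 2) * E') := by
          refine mul_le_mul_of_nonneg_left (mul_le_mul_of_nonneg_right ?_ hE'.le)
            (inv_pos.2 ht₂).le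
          have := mul_le_mul_of_nonneg_left h3 (sq_nonneg (z x))
          linarith
        linarith
      have ei : B.indicator (fun x => t₂ * (E * ((∑ j, F j x ^ 2) + μ x ^ 2))) x =
          t₂ * (E * ((∑ j, F j x ^ 2) + μ x ^ 2)) := indicator_of_mem hxB _
      have e4 : (1 / 2 * t₁⁻¹ + 1 / 2 * t₂⁻¹ * (n * ρ ^ 2 + 9 * n ^ 4 * ρ ^ 4)) *
          (z x ^ 2 * E') = 1 / 2 * (t₁⁻¹ * (z x ^ 2 * E')) +
          1 / 2 * (t₂⁻¹ * ((n * ρ ^ 2 * z x ^ 2) * E')) +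
          1 / 2 * (t₂⁻¹ * ((9 * n ^ 4 * ρ ^ 4 * z x ^ 2) * E')) := by ring
      have e5 : (1 / 2 * t₁⁻¹ + 1 / 2 * t₂⁻¹ * (16 * n * ρ ^ 2)) *
          (gq z x * (E' * (χ₁ x * χ₁ x))) = 1 / 2 * (t₁⁻¹ * (gq z x * E')) +
          1 / 2 * (t₂⁻¹ * ((16 * n * ρ ^ 2 * gq z x) * E')) := by
        rw [hχ1]
        ring
      have e6 : 1 / 2 * t₁ * ((E * ((∑ j, F j x ^ 2) + f x ^ 2)) * (χ x * χ x)) =
          1 / 2 * (t₁ * ((∑ i, F i x ^ 2) * (χ x * χ x) * E)) +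
          1 / 2 * (t₁ * ((f x * χ x) ^ 2 * E)) := by ring
      have e7 : t₂ * (E * ((∑ j, F j x ^ 2) + μ x ^ 2)) =
          1 / 2 * (t₂ * ((∑ i, F i x ^ 2) * E)) + 1 / 2 * (t₂ * (μ x ^ 2 * E)) +
          1 / 2 * (t₂ * (μ x ^ 2 * E)) + 1 / 2 * (t₂ * ((∑ i, F i x ^ 2) * E)) := by ring
      have n9 : 0 ≤ 1 / 2 * (t₂ * ((∑ i, F i x ^ 2) * E)) := by positivity
      rw [ei, e4, e5, e6, e7]
      linarith
    · have z1 : ∀ k, LR.pd k χ x = 0 := fun k => (hC.zB x hxB k).1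
      have z2 : Ld s χ x = 0 := by
        unfold Ld
        refine Finset.sum_eq_zero fun i _ => ?_
        rw [pd_fl hO hs hχ.con hx i i]
        refine Finset.sum_eq_zero fun j _ => ?_
        rw [z1, (hC.zB x hxB j).2 i, mul_zero, mul_zero, add_zero]
      have e1 : ∑ i, fl s z i x * LR.pd i χ x = 0 :=
        Finset.sum_eq_zero fun i _ => by rw [z1, mul_zero]
      have e2 : ∑ i, F i x * LR.pd i χ x = 0 :=
        Finset.sum_eq_zero fun i _ => by rw [z1, mul_zero]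
      rw [z2, e1, e2]
      have e4 : (1 / 2 * t₁⁻¹ + 1 / 2 * t₂⁻¹ * (n * ρ ^ 2 + 9 * n ^ 4 * ρ ^ 4)) *
          (z x ^ 2 * E') = 1 / 2 * (t₁⁻¹ * (z x ^ 2 * E')) +
          1 / 2 * (t₂⁻¹ * (((n * ρ ^ 2 + 9 * n ^ 4 * ρ ^ 4) * z x ^ 2) * E')) := by ring
      have e5 : (1 / 2 * t₁⁻¹ + 1 / 2 * t₂⁻¹ * (16 * n * ρ ^ 2)) *
          (gq z x * (E' * (χ₁ x * χ₁ x))) = 1 / 2 * (t₁⁻¹ * (gq z x * E')) +
          1 / 2 * (t₂⁻¹ * ((16 * n * ρ ^ 2 * gq z x) * E')) := by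
        rw [hχ1]
        ring
      have e6 : 1 / 2 * t₁ * ((E * ((∑ j, F j x ^ 2) + f x ^ 2)) * (χ x * χ x)) =
          1 / 2 * (t₁ * ((∑ i, F i x ^ 2) * (χ x * χ x) * E)) +
          1 / 2 * (t₁ * ((f x * χ x) ^ 2 * E)) := by ring
      have m1 : 0 ≤ 1 / 2 * (t₂⁻¹ * (((n * ρ ^ 2 + 9 * n ^ 4 * ρ ^ 4) * z x ^ 2) * E')) := by
        positivity
      have m2 : 0 ≤ 1 / 2 * (t₂⁻¹ * ((16 * n * ρ ^ 2 * gq z x) * E')) := by positivity
      rw [e4, e5, e6]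
      linarith
  · have z0 : χ x = 0 := image_eq_zero_of_notMem_tsupport hxs
    have z1 : ∀ k, LR.pd k χ x = 0 := fun k =>
      image_eq_zero_of_notMem_tsupport fun h => hxs (tsupport_fderiv_apply_subset ℝ _ h)
    have z3 : ∀ k l, LR.pd k (LR.pd l χ) x = 0 := fun k l =>
      image_eq_zero_of_notMem_tsupport fun h => hxs (tsupport_fderiv_apply_subset ℝ _
        (tsupport_fderiv_apply_subset ℝ _ h))
    have z2 : Ld s χ x = 0 := by
      unfold Ld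
      refine Finset.sum_eq_zero fun i _ => ?_
      rw [pd_fl hO hs hχ.con hx i i]
      refine Finset.sum_eq_zero fun j _ => ?_
      rw [z1, z3 i j, mul_zero, mul_zero, add_zero]
    have e1 : ∑ i, fl s z i x * LR.pd i χ x = 0 :=
      Finset.sum_eq_zero fun i _ => by rw [z1, mul_zero]
    have e2 : ∑ i, F i x * LR.pd i χ x = 0 :=
      Finset.sum_eq_zero fun i _ => by rw [z1, mul_zero]
    rw [z2, e1, e2]
    rw [z0] at n1 ⊢
    linarith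

theorem int4 {S : Set (V n)} {a b c d : V n → ℝ} (ha : IntegrableOn a S) (hb : IntegrableOn b S)
    (hc : IntegrableOn c S) (hd : IntegrableOn d S) :
    ∫ x in S, ((a x + b x) + (c x + d x)) =
      ((∫ x in S, a x) + ∫ x in S, b x) + ((∫ x in S, c x) + ∫ x in S, d x) := by
  have h1 : ∫ x in S, (a x + b x) = (∫ x in S, a x) + ∫ x in S, b x := integral_add ha hb
  have h2 : ∫ x in S, (c x + d x) = (∫ x in S, c x) + ∫ x in S, d x := integral_add hc hd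
  rw [← h1, ← h2]
  exact integral_add (ha.add hb) (hc.add hd)

/-- The closing algebra. -/
theorem closeW {n : ℕ} (hn0 : (0 : ℝ) ≤ n) {C K ρ W I J Z G t₁ t₂ : ℝ} (hC : 0 < C)
    (hK : K = (100 * n + 36 * n ^ 4 + 1) * C) (hρ1 : 1 ≤ ρ) (hW0 : 0 ≤ W) (hI0 : 0 ≤ I)
    (hJ0 : 0 ≤ J) (ht₁ : t₁ = 4 * C / ρ) (ht₂ : t₂ = K * ρ) (hbz : Z ≤ C / ρ ^ 3 * W)
    (hbg : G ≤ C / ρ * W)
    (hmain : W ≤ (1 / 2 * t₁ * I + t₂ * J) +
      ((1 / 2 * t₁⁻¹ + 1 / 2 * t₂⁻¹ * (n * ρ ^ 2 + 9 * n ^ 4 * ρ ^ 4)) * Z +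
        (1 / 2 * t₁⁻¹ + 1 / 2 * t₂⁻¹ * (16 * n * ρ ^ 2)) * G)) :
    W ≤ (4 * C + 2 * K) / ρ * I + (4 * C + 2 * K) * ρ * J := by
  have hρ0 : 0 < ρ := by linarith
  have hK0 : 0 < K := by rw [hK]; positivity
  have ht₁0 : 0 < t₁ := by rw [ht₁]; positivity
  have ht₂0 : 0 < t₂ := by rw [ht₂]; positivity
  have q0 : 1 / 2 * t₁⁻¹ = ρ / (8 * C) := by
    rw [ht₁]
    field_simp
    norm_num
  have q1 : (1 / 2 * t₁⁻¹ + 1 / 2 * t₂⁻¹ * (n * ρ ^ 2 + 9 * n ^ 4 * ρ ^ 4)) * (C / ρ ^ 3) ≤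
      1 / 4 := by
    have g1 : ρ / (8 * C) * (C / ρ ^ 3) ≤ 1 / 8 := by
      have : ρ / (8 * C) * (C / ρ ^ 3) = 1 / (8 * ρ ^ 2) := by
        field_simp
      rw [this]
      refine one_div_le_one_div_of_le (by norm_num) ?_
      nlinarith
    have g2 : 1 / 2 * t₂⁻¹ * (n * ρ ^ 2 + 9 * n ^ 4 * ρ ^ 4) * (C / ρ ^ 3) ≤ 1 / 8 := by
      have e : 1 / 2 * t₂⁻¹ * (n * ρ ^ 2 + 9 * n ^ 4 * ρ ^ 4) * (C / ρ ^ 3) =
          (n / ρ ^ 2 + 9 * n ^ 4) / (2 * (100 * n + 36 * n ^ 4 + 1)) := by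
        rw [ht₂, hK]
        field_simp
      rw [e, div_le_div_iff₀ (by positivity) (by norm_num)]
      have : (n : ℝ) / ρ ^ 2 ≤ n := div_le_self hn0 (by nlinarith)
      have h4 : (0 : ℝ) ≤ (n : ℝ) ^ 4 := by positivity
      linarith
    rw [q0, add_mul]
    linarith
  have q2 : (1 / 2 * t₁⁻¹ + 1 / 2 * t₂⁻¹ * (16 * n * ρ ^ 2)) * (C / ρ) ≤ 1 / 4 := by
    have g1 : ρ / (8 * C) * (C / ρ) = 1 / 8 := by
      field_simp
    have g2 : 1 / 2 * t₂⁻¹ * (16 * n * ρ ^ 2) * (C / ρ) ≤ 1 / 8 := by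
      have e : 1 / 2 * t₂⁻¹ * (16 * n * ρ ^ 2) * (C / ρ) =
          16 * n / (2 * (100 * n + 36 * n ^ 4 + 1)) := by
        rw [ht₂, hK]
        field_simp
      rw [e, div_le_div_iff₀ (by positivity) (by norm_num)]
      have : (0 : ℝ) ≤ (n : ℝ) ^ 4 := by positivity
      linarith
    rw [q0, add_mul]
    linarith
  have q3 : (1 / 2 * t₁⁻¹ + 1 / 2 * t₂⁻¹ * (n * ρ ^ 2 + 9 * n ^ 4 * ρ ^ 4)) * Z ≤ 1 / 4 * W := by
    have := mul_le_mul_of_nonneg_left hbz (show 0 ≤ 1 / 2 * t₁⁻¹ + 1 / 2 * t₂⁻¹ *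
      (n * ρ ^ 2 + 9 * n ^ 4 * ρ ^ 4) by positivity)
    refine this.trans ?_
    rw [← mul_assoc]
    exact mul_le_mul_of_nonneg_right q1 hW0
  have q4 : (1 / 2 * t₁⁻¹ + 1 / 2 * t₂⁻¹ * (16 * n * ρ ^ 2)) * G ≤ 1 / 4 * W := by
    have := mul_le_mul_of_nonneg_left hbg (show 0 ≤ 1 / 2 * t₁⁻¹ + 1 / 2 * t₂⁻¹ *
      (16 * n * ρ ^ 2) by positivity)
    refine this.trans ?_
    rw [← mul_assoc]
    exact mul_le_mul_of_nonneg_right q2 hW0
  have q5 : W ≤ t₁ * I + 2 * (t₂ * J) := by linarith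
  refine q5.trans ?_
  have r1 : t₁ * I ≤ (4 * C + 2 * K) / ρ * I := by
    refine mul_le_mul_of_nonneg_right ?_ hI0
    rw [ht₁]
    refine div_le_div_of_nonneg_right ?_ hρ0.le
    linarith
  have r2 : 2 * (t₂ * J) ≤ (4 * C + 2 * K) * ρ * J := by
    rw [ht₂]
    have h0 : 0 ≤ C * ρ * J := by positivity
    have e : (4 * C + 2 * K) * ρ * J = 2 * (K * ρ * J) + 4 * (C * ρ * J) := by ring
    linarith
  linarith

/-- The constant of the dual test. -/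
def cT (n : ℕ) (M D : ℝ) : ℝ :=
  4 * cS n M D + 2 * ((100 * n + 36 * n ^ 4 + 1) * cS n M D)

theorem cT_pos (n : ℕ) (M : ℝ) {D : ℝ} (hD0 : 0 < D) : 0 < cT n M D := by
  have := cS_pos n M hD0
  unfold cT
  positivity

/-- **The dual test.** -/
theorem dual (hO : IsOpen O) {M D ρ : ℝ} (hD0 : 0 < D) {s : MF n} {g : V n → ℝ}
    (h : Wh O M s g) (hρ1 : 1 ≤ ρ) (hS : SlD O s g ρ (D / ρ ^ 3)) {B : Set (V n)}
    {χ χ₁ χ₂ : V n → ℝ} (hCC : CC O B ρ χ χ₁ χ₂) (μ f : V n → ℝ) (F : Fin n → V n → ℝ)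
    (hμ : ContDiffOn ℝ ∞ μ O) (hf : ContDiffOn ℝ ∞ f O) (hF : ∀ j, ContDiffOn ℝ ∞ (F j) O)
    (heq : ∀ x ∈ O, Ld s μ x = ∑ j, LR.pd j (F j) x + f x) :
    wI χ g ρ (fun x => μ x ^ 2) ≤
      cT n M D / ρ * wI χ g ρ (fun x => (∑ j, F j x ^ 2) + f x ^ 2) +
        cT n M D * ρ * wB B g ρ (fun x => (∑ j, F j x ^ 2) + μ x ^ 2) := by
  have hC : 0 < cS n M D := cS_pos n M hD0
  obtain ⟨C, hCe⟩ : ∃ C, C = cS n M D := ⟨_, rfl⟩
  have hn0 : (0 : ℝ) ≤ n := Nat.cast_nonneg n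
  have hρ0 : 0 < ρ := by linarith
  have hχ := CC_t0 hCC
  have hχ1 := CC_t1 hCC
  obtain ⟨z, hz, hLz, hiz, hbz, hbg⟩ := sol hO hD0 h hρ1 hS hχ hχ1 hCC.b1
    (fun i x => hCC.d1 i x) hμ
  unfold cT
  rw [← hCe] at hC hbz hbg ⊢
  obtain ⟨K, hK⟩ : ∃ K, K = (100 * n + 36 * n ^ 4 + 1) * C := ⟨_, rfl⟩
  rw [← hK]
  have hK0 : 0 < K := by rw [hK]; positivity
  have hnr : Nr O s := h.nr
  set W : ℝ := wI χ g ρ (fun x => μ x ^ 2) with hW
  have hW0 : 0 ≤ W := integral_nonneg fun x => by positivity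
  have hEc : ContDiffOn ℝ ∞ (fun x => Real.exp (2 * ρ * g x)) O := exp_cdo h.gs (2 * ρ)
  have eW : ∫ x, (μ x * Ld s z x) * χ x = W := by
    have tW : TO O fun x => (μ x * μ x * Real.exp (2 * ρ * g x)) * (χ x * χ x) :=
      TO.mul hO ((hμ.mul hμ).mul hEc) (TO.mul hO hχ.con hχ)
    have tA : TO O fun x => (μ x * Ld s z x) * χ x :=
      TO.mul hO (hμ.mul (Ld_cdo hO h.sm hz)) hχ
    have e1 := TO.congr_all tA tW fun x hx => by
      rw [hLz x hx]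
      ring
    simp only [e1]
    rw [hW]
    unfold wI
    congr 1
    funext x
    ring
  have hid := test_id hO h.sm h.sy hχ hμ hz hF hf heq
  rw [eW] at hid
  -- the terms of the estimate
  obtain ⟨t₁, ht₁⟩ : ∃ t : ℝ, t = 4 * C / ρ := ⟨_, rfl⟩
  obtain ⟨t₂, ht₂⟩ : ∃ t : ℝ, t = K * ρ := ⟨_, rfl⟩
  have ht₁0 : 0 < t₁ := by rw [ht₁]; positivity
  have ht₂0 : 0 < t₂ := by rw [ht₂]; positivity
  have hFF : ContDiffOn ℝ ∞ (fun x => ∑ j, F j x ^ 2) O := ContDiffOn.sum fun j _ => (hF j).pow 2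
  have tR : TO O fun x => (z x * f x) * χ x - (∑ i, F i x * LR.pd i z x) * χ x -
      2 * (μ x * ∑ i, fl s z i x * LR.pd i χ x) - z x * (∑ i, F i x * LR.pd i χ x) -
      (z x * μ x) * Ld s χ x :=
    ((((TO.mul hO (hz.mul hf) hχ).sub (TO.mul hO (ContDiffOn.sum fun i _ =>
      (hF i).mul (pd_cdo hO hz i)) hχ)).sub
      ((TO.mul hO hμ (fls_TO hO h.sm hz hχ)).const_mul 2)).sub (TO.mul hO hz
      (TO.sum _ fun i _ => TO.mul hO (hF i) (hχ.pd i)))).sub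
      (TO.mul hO (hz.mul hμ) (Ld_TO hO h.sm hχ))
  have a1 : TO O fun x => (Real.exp (2 * ρ * g x) * ((∑ j, F j x ^ 2) + f x ^ 2)) *
      (χ x * χ x) := TO.mul hO (hEc.mul (hFF.add (hf.pow 2))) (TO.mul hO hχ.con hχ)
  have a2 : IntegrableOn (fun x => Real.exp (2 * ρ * g x) * ((∑ j, F j x ^ 2) + μ x ^ 2)) B :=
    CC_intB hCC (hEc.mul (hFF.add (hμ.pow 2))).continuousOn
  have a2c : IntegrableOn (fun x => t₂ * (Real.exp (2 * ρ * g x) *
      ((∑ j, F j x ^ 2) + μ x ^ 2))) B := Integrable.const_mul a2 t₂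
  have a2' : Integrable (B.indicator fun x => t₂ * (Real.exp (2 * ρ * g x) *
      ((∑ j, F j x ^ 2) + μ x ^ 2))) := (integrable_indicator_iff hCC.mB).2 a2c
  have hE'c : ContDiffOn ℝ ∞ (fun x => Real.exp (-(2 * ρ * g x))) O := by
    have := exp_cdo h.gs (-(2 * ρ))
    simpa only [neg_mul] using this
  have a4 : TO O fun x => gq z x * (Real.exp (-(2 * ρ * g x)) * (χ₁ x * χ₁ x)) :=
    TO.mul hO (gq_cdo hO hz) (TO.mul hO hE'c (TO.mul hO hχ1.con hχ1))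
  have hmain : W ≤ ∫ x in O, ((1 / 2 * t₁ * ((Real.exp (2 * ρ * g x) *
      ((∑ j, F j x ^ 2) + f x ^ 2)) * (χ x * χ x)) +
      B.indicator (fun x => t₂ * (Real.exp (2 * ρ * g x) * ((∑ j, F j x ^ 2) + μ x ^ 2))) x) +
      ((1 / 2 * t₁⁻¹ + 1 / 2 * t₂⁻¹ * (n * ρ ^ 2 + 9 * n ^ 4 * ρ ^ 4)) *
        (z x ^ 2 * Real.exp (-(2 * ρ * g x))) +
      (1 / 2 * t₁⁻¹ + 1 / 2 * t₂⁻¹ * (16 * n * ρ ^ 2)) *
        (gq z x * (Real.exp (-(2 * ρ * g x)) * (χ₁ x * χ₁ x))))) := by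
    rw [hid, ← setInt_TO tR]
    refine setIntegral_mono_on tR.integrable.integrableOn
      (((a1.integrable.integrableOn.const_mul _).add a2'.integrableOn).add
      ((hiz.const_mul _).add (a4.integrable.integrableOn.const_mul _))) hO.measurableSet
      fun x hx => ?_
    have hEE : Real.exp (2 * ρ * g x) * Real.exp (-(2 * ρ * g x)) = 1 := by
      rw [← Real.exp_add, add_neg_cancel, Real.exp_zero]
    have := pt_bd hO h.sm hnr h.s1 hρ1 hCC μ z f F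
      ht₁0 ht₂0 hx (Real.exp_pos (2 * ρ * g x)) (Real.exp_pos (-(2 * ρ * g x))) hEE
    refine this.trans (le_of_eq ?_)
    by_cases hxB : x ∈ B
    · rw [indicator_of_mem hxB, indicator_of_mem hxB]
    · rw [indicator_of_notMem hxB, indicator_of_notMem hxB]
  have j1 : IntegrableOn (fun x => 1 / 2 * t₁ * ((Real.exp (2 * ρ * g x) *
      ((∑ j, F j x ^ 2) + f x ^ 2)) * (χ x * χ x))) O :=
    Integrable.const_mul a1.integrable.integrableOn _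
  have j2 : IntegrableOn (fun x => B.indicator (fun x => t₂ * (Real.exp (2 * ρ * g x) *
      ((∑ j, F j x ^ 2) + μ x ^ 2))) x) O := a2'.integrableOn
  have j3 : IntegrableOn (fun x => (1 / 2 * t₁⁻¹ + 1 / 2 * t₂⁻¹ *
      (n * ρ ^ 2 + 9 * n ^ 4 * ρ ^ 4)) * (z x ^ 2 * Real.exp (-(2 * ρ * g x)))) O :=
    Integrable.const_mul hiz _
  have j4 : IntegrableOn (fun x => (1 / 2 * t₁⁻¹ + 1 / 2 * t₂⁻¹ * (16 * n * ρ ^ 2)) *
      (gq z x * (Real.exp (-(2 * ρ * g x)) * (χ₁ x * χ₁ x)))) O :=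
    Integrable.const_mul a4.integrable.integrableOn _
  rw [int4 j1 j2 j3 j4, integral_const_mul, integral_const_mul, integral_const_mul, setInt_TO a1, setInt_TO a4,
    setIntegral_indicator hCC.mB, inter_eq_right.2 (CC_BO hCC), integral_const_mul] at hmain
  have e1 : ∫ x, (Real.exp (2 * ρ * g x) * ((∑ j, F j x ^ 2) + f x ^ 2)) * (χ x * χ x) =
      wI χ g ρ (fun x => (∑ j, F j x ^ 2) + f x ^ 2) := by
    unfold wI
    congr 1
    funext x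
    ring
  have e2 : ∫ x in B, Real.exp (2 * ρ * g x) * ((∑ j, F j x ^ 2) + μ x ^ 2) =
      wB B g ρ (fun x => (∑ j, F j x ^ 2) + μ x ^ 2) := rfl
  rw [e1, e2] at hmain
  set I : ℝ := wI χ g ρ (fun x => (∑ j, F j x ^ 2) + f x ^ 2) with hI
  set J : ℝ := wB B g ρ (fun x => (∑ j, F j x ^ 2) + μ x ^ 2) with hJ
  have hI0 : 0 ≤ I := integral_nonneg fun x => by
    have : 0 ≤ ∑ j, F j x ^ 2 := Finset.sum_nonneg fun _ _ => sq_nonneg _
    positivity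
  have hJ0 : 0 ≤ J := by
    refine setIntegral_nonneg hCC.mB fun x _ => ?_
    have : 0 ≤ ∑ j, F j x ^ 2 := Finset.sum_nonneg fun _ _ => sq_nonneg _
    positivity
  exact closeW hn0 hC hK hρ1 hW0 hI0 hJ0 ht₁ ht₂ hbz hbg hmain

end Vale.Agent.P088.S4.H972
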