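import Vale.Agent.P088.R2.H972.XME.Mat

/-!
# P088, stage 4, row X-ME: the difference of the equations is in divergence form
-/

open MeasureTheory Set
open scoped ContDiff Matrix

noncomputable section

namespace Vale.Agent.P088.S4.H972

open Vale.Agent.P088.LR Vale.Agent.P088.LR.U Vale.Agent.P088.LR.H158
open Vale.Agent.P088.LR.U.H129 (smC_pdm smC_add smC_sub smC_sum smC_smul pdm_add pdm_sub)
open Vale.Agent.P088.PJ
open Vale.Agent.P088.PJ.H561 (fn nq_nonneg fn_nonneg fn_sq fn_mul fn_le Qd Fl rst)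

variable {n N : ℕ} {O K : Set (V n)}

/-- Bounds of the coefficients. -/
structure Bc (c : ℝ) (s₁ s₂ : MF n) (P₁ P₂ : MC n N) (G₁ G₂ Y : Fin n → MC n N)
    (Γ : Fin n → Fin n → MC n N) : Prop where
  c1 : 1 ≤ c
  y₁ : ∀ i j x, s₁ x i j = s₁ x j i
  y₂ : ∀ i j x, s₂ x i j = s₂ x j i
  m₁ : SmM s₁
  m₂ : SmM s₂
  a₁ : ∀ i j x, |s₁ x i j| ≤ 2
  a₂ : ∀ i j x, |s₂ x i j| ≤ 2
  d₂ : ∀ i j k x, |pd k (fun y => s₂ y i j) x| ≤ 2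
  u₁ : ∀ x, IsUnit (P₁ x).det
  u₂ : ∀ x, IsUnit (P₂ x).det
  sP₁ : SmC P₁
  sP₂ : SmC P₂
  sI₁ : SmC fun x => (P₁ x)⁻¹
  sI₂ : SmC fun x => (P₂ x)⁻¹
  sG₁ : ∀ i, SmC (G₁ i)
  sG₂ : ∀ i, SmC (G₂ i)
  sY : ∀ a, SmC (Y a)
  bP : ∀ x, nq (P₂ x) ≤ c
  bp : ∀ i x, nq (pdm i P₁ x) ≤ c
  bY : ∀ i a x, nq (pdm i (Y a) x) ≤ c
  bk : ∀ i x, nq (kp s₂ G₂ i x) ≤ c
  bg : ∀ i x, nq (G₁ i x) ≤ c
  bB : ∀ i x, nq (pdm i P₁ x + G₁ i x) ≤ c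
  tA : ∀ i, Tm c fun x => (pdm i P₁ x - G₁ i x) * (P₁ x)⁻¹
  tB : ∀ i, Tm c fun x => (P₂ x)⁻¹ * (pdm i P₂ x + G₂ i x)
  tΓ : ∀ a b, Tm c (Γ a b)

/-- The size of the differences. -/
abbrev Us (s₁ s₂ : MF n) (P₁ P₂ : MC n N) (D : Fin n → MC n N) : V n → ℝ := U0 s₁ s₂ P₁ P₂ D

section

variable {s₁ s₂ : MF n} {P₁ P₂ : MC n N} {G₁ G₂ Y D : Fin n → MC n N}
  {Γ : Fin n → Fin n → MC n N} {c : ℝ}

theorem hh_nn (x : V n) : 0 ≤ hh s₁ s₂ x :=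
  Finset.sum_nonneg fun _ _ => Finset.sum_nonneg fun _ _ => sq_nonneg _

theorem d0_nn (x : V n) : 0 ≤ d0 D x := Finset.sum_nonneg fun _ _ => nq_nonneg _

theorem d1_nn (x : V n) : 0 ≤ d1 D x :=
  Finset.sum_nonneg fun _ _ => Finset.sum_nonneg fun _ _ => nq_nonneg _

theorem U0_nn (x : V n) : 0 ≤ U0 s₁ s₂ P₁ P₂ D x := by
  unfold U0
  have := hh_nn (s₁ := s₁) (s₂ := s₂) x
  have := d0_nn (D := D) x
  have := d1_nn (D := D) x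
  have := nq_nonneg (P₂ x - P₁ x)
  linarith

theorem hh_le (x : V n) : hh s₁ s₂ x ≤ U0 s₁ s₂ P₁ P₂ D x := by
  unfold U0
  have := d0_nn (D := D) x
  have := d1_nn (D := D) x
  have := nq_nonneg (P₂ x - P₁ x)
  linarith

theorem m_le (x : V n) : nq (P₂ x - P₁ x) ≤ U0 s₁ s₂ P₁ P₂ D x := by
  unfold U0
  have := d0_nn (D := D) x
  have := d1_nn (D := D) x
  have := hh_nn (s₁ := s₁) (s₂ := s₂) x
  linarith

theorem d1_le (x : V n) : d1 D x ≤ U0 s₁ s₂ P₁ P₂ D x := by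
  unfold U0
  have := d0_nn (D := D) x
  have := hh_nn (s₁ := s₁) (s₂ := s₂) x
  have := nq_nonneg (P₂ x - P₁ x)
  linarith

theorem hij_le (i j : Fin n) (x : V n) : (s₂ x i j - s₁ x i j) ^ 2 ≤ hh s₁ s₂ x := by
  unfold hh
  refine le_trans ?_ (Finset.single_le_sum (f := fun i => ∑ j, (s₂ x i j - s₁ x i j) ^ 2)
    (fun _ _ => Finset.sum_nonneg fun _ _ => sq_nonneg _) (Finset.mem_univ i))
  exact Finset.single_le_sum (f := fun j => (s₂ x i j - s₁ x i j) ^ 2) (fun _ _ => sq_nonneg _)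
    (Finset.mem_univ j)

theorem Da_le (a : Fin n) (x : V n) : ∑ i, nq (pdm i (D a) x) ≤ d1 D x :=
  Finset.single_le_sum (f := fun a => ∑ i, nq (pdm i (D a) x))
    (fun _ _ => Finset.sum_nonneg fun _ _ => nq_nonneg _) (Finset.mem_univ a)

/-- The bound of `Z`. -/
theorem Zt_le (h : Bc c s₁ s₂ P₁ P₂ G₁ G₂ Y Γ) (D : Fin n → MC n N) (i j : Fin n) (x : V n) :
    nq (Zt s₁ s₂ P₁ P₂ i j x) ≤ 2 * (c + 4) * U0 s₁ s₂ P₁ P₂ D x := by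
  have e : Zt s₁ s₂ P₁ P₂ i j x =
      (((s₂ x i j - s₁ x i j : ℝ) : ℂ)) • P₂ x + ((s₁ x i j : ℝ) : ℂ) • (P₂ x - P₁ x) := by
    unfold Zt TP
    rw [Complex.ofReal_sub, sub_smul, smul_sub]
    abel
  rw [e]
  refine (nq_add _ _).trans ?_
  rw [nq_rsmul, nq_rsmul]
  have h1 := hij_le (s₁ := s₁) (s₂ := s₂) i j x
  have h2 := hh_le (s₁ := s₁) (s₂ := s₂) (P₁ := P₁) (P₂ := P₂) (D := D) x
  have h3 := m_le (s₁ := s₁) (s₂ := s₂) (P₁ := P₁) (P₂ := P₂) (D := D) x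
  have h4 := h.bP x
  have h5 := h.a₁ i j x
  have h6 : s₁ x i j ^ 2 ≤ 4 := by
    rw [← sq_abs]
    nlinarith [abs_nonneg (s₁ x i j)]
  have g1 : (s₂ x i j - s₁ x i j) ^ 2 * nq (P₂ x) ≤ U0 s₁ s₂ P₁ P₂ D x * c :=
    mul_le_mul (h1.trans h2) h4 (nq_nonneg _) (U0_nn x)
  have g2 : s₁ x i j ^ 2 * nq (P₂ x - P₁ x) ≤ 4 * U0 s₁ s₂ P₁ P₂ D x :=
    mul_le_mul h6 h3 (nq_nonneg _) (by norm_num)
  linarith

theorem sm_TP {s : MF n} {P : MC n N} (hs : SmM s) (hP : SmC P) (i j : Fin n) :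
    SmC (TP s P i j) := smC_smul (hs i j) hP

theorem sm_kp {s : MF n} {G : Fin n → MC n N} (hs : SmM s) (hG : ∀ i, SmC (G i)) (i : Fin n) :
    SmC (kp s G i) := smC_sum fun j _ => smC_smul (hs i j) (hG j)

theorem sm_Zt (h : Bc c s₁ s₂ P₁ P₂ G₁ G₂ Y Γ) (i j : Fin n) : SmC (Zt s₁ s₂ P₁ P₂ i j) :=
  smC_sub (sm_TP h.m₂ h.sP₂ i j) (sm_TP h.m₁ h.sP₁ i j)

/-- The expression in the gauge identity. -/
def Ea (s₁ s₂ : MF n) (P₁ P₂ : MC n N) (G₂ Y D : Fin n → MC n N) (a : Fin n) : MC n N := fun x =>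
  ∑ j, pdm j (fun y => ∑ i, Zt s₁ s₂ P₁ P₂ j i y * pdm i (Y a) y) x
    + ∑ i, pdm i (fun y => ∑ j, TP s₂ P₂ i j y * pdm j (D a) y) x
    + ∑ i, kp s₂ G₂ i x * pdm i (D a) x

/-- The constant of `Ea`. -/
def cE (n : ℕ) (c : ℝ) : ℝ := 2 * (2 * (n ^ 3 * (2 * (c + 4)) * c + 4 * n ^ 2 * c) + n * c)

theorem Ea_DF (h : Bc c s₁ s₂ P₁ P₂ G₁ G₂ Y Γ) (hD : ∀ a, SmC (D a)) (a : Fin n) :
    DF O (U0 s₁ s₂ P₁ P₂ D) (cE n c) (Ea s₁ s₂ P₁ P₂ G₂ Y D a) := by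
  have hc : 0 ≤ c := by linarith [h.c1]
  have hn0 : (0 : ℝ) ≤ n := Nat.cast_nonneg n
  have sF : ∀ j, SmC fun y => ∑ i, Zt s₁ s₂ P₁ P₂ j i y * pdm i (Y a) y := fun j =>
    smC_sum fun i _ => SmC_mul (sm_Zt h j i) (smC_pdm (h.sY a) i)
  have sF' : ∀ i, SmC fun y => ∑ j, TP s₂ P₂ i j y * pdm j (D a) y := fun i =>
    smC_sum fun j _ => SmC_mul (sm_TP h.m₂ h.sP₂ i j) (smC_pdm (hD a) j)
  have s3 : SmC fun x => ∑ i, kp s₂ G₂ i x * pdm i (D a) x :=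
    smC_sum fun i _ => SmC_mul (sm_kp h.m₂ h.sG₂ i) (smC_pdm (hD a) i)
  have b1 : ∀ x, ∑ j, nq (∑ i, Zt s₁ s₂ P₁ P₂ j i x * pdm i (Y a) x) ≤
      n ^ 3 * (2 * (c + 4)) * c * U0 s₁ s₂ P₁ P₂ D x := by
    intro x
    have g : ∀ j, nq (∑ i, Zt s₁ s₂ P₁ P₂ j i x * pdm i (Y a) x) ≤
        n * (n * ((2 * (c + 4) * U0 s₁ s₂ P₁ P₂ D x) * c)) := by
      intro j
      refine (nq_sumn _).trans (mul_le_mul_of_nonneg_left ?_ hn0)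
      calc ∑ i, nq (Zt s₁ s₂ P₁ P₂ j i x * pdm i (Y a) x) ≤
          ∑ _i : Fin n, (2 * (c + 4) * U0 s₁ s₂ P₁ P₂ D x) * c := by
            refine Finset.sum_le_sum fun i _ => (nq_mul _ _).trans ?_
            exact mul_le_mul (Zt_le h D j i x) (h.bY i a x) (nq_nonneg _)
              (mul_nonneg (by linarith) (U0_nn x))
        _ = _ := by simp
    calc _ ≤ ∑ _j : Fin n, n * (n * ((2 * (c + 4) * U0 s₁ s₂ P₁ P₂ D x) * c)) :=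
          Finset.sum_le_sum fun j _ => g j
      _ = _ := by
        rw [Finset.sum_const, Finset.card_univ, Fintype.card_fin, nsmul_eq_mul]
        ring
  have t4 : ∀ i j x, nq (TP s₂ P₂ i j x) ≤ 4 * c := by
    intro i j x
    unfold TP
    rw [nq_rsmul]
    have h5 := h.a₂ i j x
    have h6 : s₂ x i j ^ 2 ≤ 4 := by
      rw [← sq_abs]
      nlinarith [abs_nonneg (s₂ x i j)]
    exact mul_le_mul h6 (h.bP x) (nq_nonneg _) (by norm_num)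
  have b2 : ∀ x, ∑ i, nq (∑ j, TP s₂ P₂ i j x * pdm j (D a) x) ≤
      4 * n ^ 2 * c * U0 s₁ s₂ P₁ P₂ D x := by
    intro x
    have g : ∀ i, nq (∑ j, TP s₂ P₂ i j x * pdm j (D a) x) ≤
        n * (4 * c * U0 s₁ s₂ P₁ P₂ D x) := by
      intro i
      refine (nq_sumn _).trans (mul_le_mul_of_nonneg_left ?_ hn0)
      calc ∑ j, nq (TP s₂ P₂ i j x * pdm j (D a) x) ≤ ∑ j, 4 * c * nq (pdm j (D a) x) := by
            refine Finset.sum_le_sum fun j _ => (nq_mul _ _).trans ?_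
            exact mul_le_mul_of_nonneg_right (t4 i j x) (nq_nonneg _)
        _ ≤ _ := by
            rw [← Finset.mul_sum]
            exact mul_le_mul_of_nonneg_left ((Da_le a x).trans (d1_le x)) (by positivity)
    calc _ ≤ ∑ _i : Fin n, n * (4 * c * U0 s₁ s₂ P₁ P₂ D x) :=
          Finset.sum_le_sum fun j _ => g j
      _ = _ := by
        rw [Finset.sum_const, Finset.card_univ, Fintype.card_fin, nsmul_eq_mul]
        ring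
  have b3 : ∀ x, nq (∑ i, kp s₂ G₂ i x * pdm i (D a) x) ≤ n * c * U0 s₁ s₂ P₁ P₂ D x := by
    intro x
    refine (nq_sumn _).trans ?_
    rw [mul_assoc]
    refine mul_le_mul_of_nonneg_left ?_ hn0
    calc ∑ i, nq (kp s₂ G₂ i x * pdm i (D a) x) ≤ ∑ i, c * nq (pdm i (D a) x) := by
            refine Finset.sum_le_sum fun j _ => (nq_mul _ _).trans ?_
            exact mul_le_mul_of_nonneg_right (h.bk j x) (nq_nonneg _)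
        _ ≤ _ := by
            rw [← Finset.mul_sum]
            exact mul_le_mul_of_nonneg_left ((Da_le a x).trans (d1_le x)) hc
  exact ((DF.div sF b1).add (DF.div sF' b2)).add (DF.zo s3 b3)

/-- The constant of `Qt`. -/
def cQ (n : ℕ) (c : ℝ) : ℝ := n ^ 2 * ((n + 2) * c * cE n c)

theorem Qt_DF (h : Bc c s₁ s₂ P₁ P₂ G₁ G₂ Y Γ) (hD : ∀ a, SmC (D a)) (b : Fin n)
    (hg : ∀ x ∈ O, Qt s₁ s₂ G₁ G₂ b x = -∑ a, Ea s₁ s₂ P₁ P₂ G₂ Y D a x * Γ a b x) :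
    DF O (U0 s₁ s₂ P₁ P₂ D) (cQ n c) (Qt s₁ s₂ G₁ G₂ b) :=
  (DF.sum fun a => DF.mulR (h.tΓ a b) (Ea_DF h hD a)).neg.congr hg

/-- The constant of `rst`. -/
def cR (n : ℕ) (c : ℝ) : ℝ :=
  2 * (2 * (2 * (2 * (2 * ((n + 2) * (16 * c) * 1 + (n + 2) * (16 * c) * 1) + c * c) + c * c)
    + 4 * (c * c)) + c * c)

theorem inv_sub' {A B : Matrix (Fin N) (Fin N) ℂ} (hA : IsUnit A.det) (hB : IsUnit B.det) :
    B⁻¹ - A⁻¹ = -(A⁻¹ * (B - A) * B⁻¹) := by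
  rw [mul_sub, sub_mul, Matrix.nonsing_inv_mul A hA, one_mul, Matrix.mul_assoc,
    Matrix.mul_nonsing_inv B hB, mul_one, neg_sub]

theorem rst_DF (h : Bc c s₁ s₂ P₁ P₂ G₁ G₂ Y Γ) (D : Fin n → MC n N) (i j : Fin n) :
    DF O (U0 s₁ s₂ P₁ P₂ D) (cR n c) (fun x => rst (fun i j => ((s₂ x i j : ℝ) : ℂ))
      (fun i j => ((s₁ x i j : ℝ) : ℂ)) (fun i => pdm i P₁ x - G₁ i x)
      (fun i => pdm i P₁ x + G₁ i x) (fun i => pdm i P₂ x + G₂ i x) (fun i => G₁ i x)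
      (fun i => pdm i (fun y => P₂ y - P₁ y) x) (P₁ x)⁻¹ (P₂ x)⁻¹ i j) := by
  have hc : 0 ≤ c := by linarith [h.c1]
  have sm : SmC fun y => P₂ y - P₁ y := smC_sub h.sP₂ h.sP₁
  have bm : ∀ x, nq ((fun y => P₂ y - P₁ y) x) ≤ 1 * U0 s₁ s₂ P₁ P₂ D x := fun x => by
    rw [one_mul]
    exact m_le x
  have sA : ∀ i, SmC fun x => (pdm i P₁ x - G₁ i x) * (P₁ x)⁻¹ := fun i => (h.tA i).sm
  have sB : ∀ i, SmC fun x => (P₂ x)⁻¹ * (pdm i P₂ x + G₂ i x) := fun i => (h.tB i).sm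
  have hsub : ContDiff ℝ ∞ fun x => s₂ x i j - s₁ x i j := (h.m₂ i j).sub (h.m₁ i j)
  have h2 : ∀ x, (s₂ x i j - s₁ x i j) ^ 2 ≤ U0 s₁ s₂ P₁ P₂ D x := fun x =>
    (hij_le i j x).trans (hh_le x)
  have p1 : DF O (U0 s₁ s₂ P₁ P₂ D) ((n + 2) * (16 * c) * 1) (fun x =>
      pdm i (fun y => P₂ y - P₁ y) x * ((s₂ x i j : ℂ) • ((P₂ x)⁻¹ * (pdm j P₂ x + G₂ j x)))) :=
    DF.mulR ((h.tB j).rsmul (h.m₂ i j) (h.a₂ i j) (h.d₂ i j)) (DF.der sm bm i)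
  have p2 : DF O (U0 s₁ s₂ P₁ P₂ D) ((n + 2) * (16 * c) * 1) (fun x =>
      ((s₂ x i j : ℂ) • ((pdm i P₁ x - G₁ i x) * (P₁ x)⁻¹)) * pdm j (fun y => P₂ y - P₁ y) x) :=
    DF.mulL ((h.tA i).rsmul (h.m₂ i j) (h.a₂ i j) (h.d₂ i j)) (DF.der sm bm j)
  have p3 : DF O (U0 s₁ s₂ P₁ P₂ D) (c * c) (fun x => ((s₂ x i j - s₁ x i j : ℝ) : ℂ) •
      (G₁ i x * ((P₂ x)⁻¹ * (pdm j P₂ x + G₂ j x)))) := by
    refine DF.zo (smC_smul hsub (SmC_mul (h.sG₁ i) (sB j))) fun x => ?_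
    rw [nq_rsmul, mul_comm (c * c)]
    exact mul_le_mul (h2 x) ((nq_mul _ _).trans (mul_le_mul (h.bg i x) ((h.tB j).b0 x)
      (nq_nonneg _) hc)) (nq_nonneg _) (U0_nn x)
  have p4 : DF O (U0 s₁ s₂ P₁ P₂ D) (c * c) (fun x => ((s₂ x i j - s₁ x i j : ℝ) : ℂ) •
      (((pdm i P₁ x - G₁ i x) * (P₁ x)⁻¹) * G₁ j x)) := by
    refine DF.zo (smC_smul hsub (SmC_mul (sA i) (h.sG₁ j))) fun x => ?_
    rw [nq_rsmul, mul_comm (c * c)]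
    exact mul_le_mul (h2 x) ((nq_mul _ _).trans (mul_le_mul ((h.tA i).b0 x) (h.bg j x)
      (nq_nonneg _) hc)) (nq_nonneg _) (U0_nn x)
  have p5 : DF O (U0 s₁ s₂ P₁ P₂ D) (4 * (c * c)) (fun x => (s₂ x i j : ℂ) •
      (-(((pdm i P₁ x - G₁ i x) * (P₁ x)⁻¹) * (P₂ x - P₁ x) *
        ((P₂ x)⁻¹ * (pdm j P₂ x + G₂ j x))))) := by
    refine DF.zo (smC_smul (h.m₂ i j) (smC_neg (SmC_mul (SmC_mul (sA i) sm) (sB j)))) fun x => ?_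
    rw [nq_rsmul, nq_neg]
    have h5 := h.a₂ i j x
    have h6 : s₂ x i j ^ 2 ≤ 4 := by
      rw [← sq_abs]
      nlinarith [abs_nonneg (s₂ x i j)]
    have g1 : nq (((pdm i P₁ x - G₁ i x) * (P₁ x)⁻¹) * (P₂ x - P₁ x)) ≤
        c * U0 s₁ s₂ P₁ P₂ D x := (nq_mul _ _).trans (mul_le_mul ((h.tA i).b0 x) (m_le x)
      (nq_nonneg _) hc)
    have g2 := (nq_mul (((pdm i P₁ x - G₁ i x) * (P₁ x)⁻¹) * (P₂ x - P₁ x))
      ((P₂ x)⁻¹ * (pdm j P₂ x + G₂ j x))).trans (mul_le_mul g1 ((h.tB j).b0 x)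
      (nq_nonneg _) (mul_nonneg hc (U0_nn x)))
    have g3 := mul_le_mul h6 g2 (nq_nonneg _) (by norm_num)
    refine g3.trans (le_of_eq ?_)
    ring
  have p6 : DF O (U0 s₁ s₂ P₁ P₂ D) (c * c) (fun x => ((s₂ x i j - s₁ x i j : ℝ) : ℂ) •
      (((pdm i P₁ x - G₁ i x) * (P₁ x)⁻¹) * (pdm j P₁ x + G₁ j x))) := by
    refine DF.zo (smC_smul hsub (SmC_mul (sA i) (smC_add (smC_pdm h.sP₁ j) (h.sG₁ j))))
      fun x => ?_
    rw [nq_rsmul, mul_comm (c * c)]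
    exact mul_le_mul (h2 x) ((nq_mul _ _).trans (mul_le_mul ((h.tA i).b0 x) (h.bB j x)
      (nq_nonneg _) hc)) (nq_nonneg _) (U0_nn x)
  refine (((((p1.add p2).add p3).sub p4).add p5).add p6).congr fun x _ => ?_
  unfold rst
  rw [inv_sub' (h.u₁ x) (h.u₂ x)]
  simp only [Complex.ofReal_sub, Matrix.mul_smul, Matrix.smul_mul, Matrix.mul_assoc,
    Matrix.mul_neg, Matrix.neg_mul]

/-- The constant of the equation. -/
def cM (n : ℕ) (c : ℝ) : ℝ :=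
  2 * (‖(1 / 2 : ℂ)‖ ^ 2 * (2 * (2 * (n ^ 2 * ((n + 2) * c * cQ n c) +
    n ^ 2 * ((n + 2) * c * cQ n c)) + n ^ 2 * (n ^ 2 * cR n c))) + n * c)

theorem Lm_DF (h : Bc c s₁ s₂ P₁ P₂ G₁ G₂ Y Γ) (hD : ∀ a, SmC (D a))
    (hg : ∀ b, ∀ x ∈ O, Qt s₁ s₂ G₁ G₂ b x = -∑ a, Ea s₁ s₂ P₁ P₂ G₂ Y D a x * Γ a b x)
    (e : ∀ x ∈ O, ∑ i, pdm i (Fl s₂ P₂ i) x - ∑ i, pdm i (Fl s₁ P₁ i) x =
      (1 / 2 : ℂ) • (Qd s₂ P₂ G₂ x - Qd s₁ P₁ G₁ x)) :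
    DF O (U0 s₁ s₂ P₁ P₂ D) (cM n c) (Lm s₂ fun y => P₂ y - P₁ y) := by
  have hc : 0 ≤ c := by linarith [h.c1]
  have hn0 : (0 : ℝ) ≤ n := Nat.cast_nonneg n
  have sm : SmC fun y => P₂ y - P₁ y := smC_sub h.sP₂ h.sP₁
  have hQ := fun b => Qt_DF h hD b (hg b)
  have sFl : ∀ (s : MF n) (P : MC n N), SmM s → SmC P → ∀ i, SmC (Fl s P i) := fun s P hs hP i =>
    smC_sum fun j _ => smC_smul (hs i j) (smC_pdm hP j)
  have hms : SmM fun x => s₂ x - s₁ x := fun i j => (h.m₂ i j).sub (h.m₁ i j)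
  have sH : ∀ i, SmC (Fl (fun x => s₂ x - s₁ x) P₁ i) := fun i => sFl _ _ hms h.sP₁ i
  have bH : ∀ x, ∑ i, nq (Fl (fun x => s₂ x - s₁ x) P₁ i x) ≤ n * c * U0 s₁ s₂ P₁ P₂ D x := by
    intro x
    have g : ∀ i, nq (Fl (fun x => s₂ x - s₁ x) P₁ i x) ≤
        n * ∑ j, (s₂ x i j - s₁ x i j) ^ 2 * c := by
      intro i
      unfold Fl
      refine (nq_sumn _).trans (mul_le_mul_of_nonneg_left ?_ hn0)
      refine Finset.sum_le_sum fun j _ => ?_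
      rw [nq_rsmul]
      exact mul_le_mul_of_nonneg_left (h.bp j x) (sq_nonneg _)
    have g2 := Finset.sum_le_sum fun i (_ : i ∈ Finset.univ) => g i
    refine g2.trans ?_
    have g3 : ∑ i, n * ∑ j, (s₂ x i j - s₁ x i j) ^ 2 * c = n * c * hh s₁ s₂ x := by
      unfold hh
      simp only [Finset.mul_sum]
      exact Finset.sum_congr rfl fun i _ => Finset.sum_congr rfl fun j _ => by ring
    rw [g3]
    exact mul_le_mul_of_nonneg_left (hh_le x) (by positivity)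
  have q1 := DF.sum fun i => DF.mulL (h.tA i) (hQ i)
  have q2 := DF.sum fun i => DF.mulR (h.tB i) (hQ i)
  have q3 := DF.sum fun i => DF.sum fun j => rst_DF (O := O) h D i j
  have q4 := ((q1.sub q2).add q3).csmul (1 / 2 : ℂ)
  have q5 := q4.sub (DF.div (O := O) sH bH)
  refine q5.congr fun x hx => ?_
  have hL : Lm s₂ (fun y => P₂ y - P₁ y) x = (∑ i, pdm i (Fl s₂ P₂ i) x -
      ∑ i, pdm i (Fl s₁ P₁ i) x) - ∑ i, pdm i (Fl (fun x => s₂ x - s₁ x) P₁ i) x := by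
    unfold Lm
    rw [← Finset.sum_sub_distrib, ← Finset.sum_sub_distrib]
    refine Finset.sum_congr rfl fun i _ => ?_
    rw [← pdm_sub (sFl _ _ h.m₂ h.sP₂ i) (sFl _ _ h.m₁ h.sP₁ i),
      ← pdm_sub (smC_sub (sFl _ _ h.m₂ h.sP₂ i) (sFl _ _ h.m₁ h.sP₁ i)) (sH i)]
    congr 1
    funext y
    unfold Fl
    rw [← Finset.sum_sub_distrib, ← Finset.sum_sub_distrib]
    refine Finset.sum_congr rfl fun j _ => ?_
    have e : (((fun x => s₂ x - s₁ x) y i j : ℝ) : ℂ) = (s₂ y i j : ℂ) - (s₁ y i j : ℂ) := by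
      rw [← Complex.ofReal_sub]
      rfl
    rw [e, pdm_sub h.sP₂ h.sP₁, sub_smul, smul_sub]
    abel
  have ea := H561.alg (fun i j => ((s₂ x i j : ℝ) : ℂ)) (fun i j => ((s₁ x i j : ℝ) : ℂ))
    (fun i j => by rw [h.y₂ i j x]) (fun i j => by rw [h.y₁ i j x])
    (fun i => pdm i P₁ x - G₁ i x) (fun i => pdm i P₂ x - G₂ i x)
    (fun i => pdm i P₁ x + G₁ i x) (fun i => pdm i P₂ x + G₂ i x)
    (fun i => G₁ i x) (fun i => G₂ i x) (fun i => pdm i (fun y => P₂ y - P₁ y) x)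
    (P₁ x)⁻¹ (P₂ x)⁻¹
    (fun i => by rw [pdm_sub h.sP₂ h.sP₁]; abel)
    (fun i => by rw [pdm_sub h.sP₂ h.sP₁]; abel)
  have eQ : ∀ i, ∑ j, ((s₂ x i j : ℂ) • G₂ j x - (s₁ x i j : ℂ) • G₁ j x) =
      Qt s₁ s₂ G₁ G₂ i x := by
    intro i
    unfold Qt kp
    rw [← Finset.sum_sub_distrib]
  rw [hL, e x hx]
  congr 1
  congr 1
  refine Eq.trans ea ?_
  simp only [eQ]

end

end Vale.Agent.P088.S4.H972
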