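import Vale.Agent.P088.R2.H972.XME.DF
import Vale.Agent.P088.R2.H972.XME.DualT

/-!
# P088, stage 4, row X-ME: the dual test for matrices
-/

open MeasureTheory Set
open scoped ContDiff Matrix

noncomputable section

namespace Vale.Agent.P088.S4.H972

open Vale.Agent.P088.LR Vale.Agent.P088.LR.U Vale.Agent.P088.LR.H158
open Vale.Agent.P088.LR.U.H129 (smC_pdm smC_add smC_sub smC_sum smC_smul pdm_add pdm_sub)
open Vale.Agent.P088.PJ Vale.Agent.P088.R2.H404
open Vale.Agent.P088.PJ.H561 (fn nq_nonneg fn_nonneg fn_sq fn_mul fn_le)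

variable {n N : ℕ} {O : Set (V n)}

/-- The real and the imaginary part of an entry. -/
def en (p : Fin N × Fin N × Bool) (A : Matrix (Fin N) (Fin N) ℂ) : ℝ :=
  if p.2.2 then (A p.1 p.2.1).re else (A p.1 p.2.1).im

theorem en_sq (A : Matrix (Fin N) (Fin N) ℂ) : ∑ p, en p A ^ 2 = nq A := by
  unfold nq en
  rw [Fintype.sum_prod_type]
  refine Finset.sum_congr rfl fun a _ => ?_
  rw [Fintype.sum_prod_type]
  refine Finset.sum_congr rfl fun b _ => ?_
  rw [Fintype.sum_bool]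
  simp only [if_true, Bool.false_eq_true, if_false]
  rw [Complex.sq_norm, Complex.normSq_apply]
  ring

theorem en_sm (p : Fin N × Fin N × Bool) {A : MC n N} (hA : SmC A) :
    ContDiff ℝ ∞ fun x => en p (A x) := by
  unfold en
  by_cases h : p.2.2 = true
  · simp only [if_pos h]
    exact Complex.reCLM.contDiff.comp (hA _ _)
  · simp only [if_neg h]
    exact Complex.imCLM.contDiff.comp (hA _ _)

theorem en_pd (p : Fin N × Fin N × Bool) {A : MC n N} (hA : SmC A) (i : Fin n) (x : V n) :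
    pd i (fun y => en p (A y)) x = en p (pdm i A x) := by
  unfold en
  by_cases h : p.2.2 = true
  · simp only [if_pos h]
    exact pd_clm Complex.reCLM (dfa (hA _ _) x) i
  · simp only [if_neg h]
    exact pd_clm Complex.imCLM (dfa (hA _ _) x) i

theorem en_add (p : Fin N × Fin N × Bool) (A B : Matrix (Fin N) (Fin N) ℂ) :
    en p (A + B) = en p A + en p B := by
  unfold en
  by_cases h : p.2.2 = true
  · simp only [if_pos h, Matrix.add_apply, Complex.add_re]
  · simp only [if_neg h, Matrix.add_apply, Complex.add_im]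

theorem en_sum (p : Fin N × Fin N × Bool) {ι : Type*} (u : Finset ι)
    (A : ι → Matrix (Fin N) (Fin N) ℂ) : en p (∑ i ∈ u, A i) = ∑ i ∈ u, en p (A i) := by
  unfold en
  by_cases h : p.2.2 = true
  · simp only [if_pos h, Matrix.sum_apply, Complex.re_sum]
  · simp only [if_neg h, Matrix.sum_apply, Complex.im_sum]

theorem en_rsmul (p : Fin N × Fin N × Bool) (r : ℝ) (A : Matrix (Fin N) (Fin N) ℂ) :
    en p ((r : ℂ) • A) = r * en p A := by
  unfold en
  by_cases h : p.2.2 = true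
  · simp only [if_pos h, Matrix.smul_apply, smul_eq_mul, Complex.re_ofReal_mul]
  · simp only [if_neg h, Matrix.smul_apply, smul_eq_mul, Complex.im_ofReal_mul]

/-- The operator on matrices. -/
def Lm (s : MF n) (m : MC n N) : MC n N := fun x =>
  ∑ i, pdm i (fun y => ∑ j, (s y i j : ℂ) • pdm j m y) x

theorem en_Lm (p : Fin N × Fin N × Bool) {s : MF n} (hs : SmM s) {m : MC n N} (hm : SmC m)
    (x : V n) : en p (Lm s m x) = Ld s (fun y => en p (m y)) x := by
  unfold Lm Ld fl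
  rw [en_sum]
  refine Finset.sum_congr rfl fun i _ => ?_
  have hS : SmC fun y => ∑ j, (s y i j : ℂ) • pdm j m y :=
    smC_sum fun j _ => smC_smul (hs i j) (smC_pdm hm j)
  rw [← en_pd p hS i x]
  congr 1
  funext y
  rw [en_sum]
  exact Finset.sum_congr rfl fun j _ => by rw [en_rsmul, en_pd p hm]

theorem cont_nq {A : MC n N} (hA : SmC A) : Continuous fun x => nq (A x) :=
  continuous_finsetSum _ fun a _ => continuous_finsetSum _ fun b _ =>
    (hA a b).continuous.norm.pow 2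

/-- Integrability for `wI`. -/
theorem wI_int {B : Set (V n)} {ρ : ℝ} {χ χ₁ χ₂ : V n → ℝ} (hC : CC O B ρ χ χ₁ χ₂)
    {g : V n → ℝ} (hg : Continuous g) {f : V n → ℝ} (hf : Continuous f) :
    Integrable fun x => χ x ^ 2 * Real.exp (2 * ρ * g x) * f x := by
  have hχ := CC_t0 hC
  refine Continuous.integrable_of_hasCompactSupport ?_ ?_
  · exact ((hχ.sm.continuous.pow 2).mul (Real.continuous_exp.comp (continuous_const.mul hg))).mul hf
  · refine HasCompactSupport.intro hχ.cs fun x hx => ?_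
    rw [image_eq_zero_of_notMem_tsupport hx]
    ring

/-- Integrability for `wB`. -/
theorem wB_int {B : Set (V n)} {ρ : ℝ} {χ χ₁ χ₂ : V n → ℝ} (hC : CC O B ρ χ χ₁ χ₂)
    {g : V n → ℝ} (hg : Continuous g) {f : V n → ℝ} (hf : Continuous f) :
    IntegrableOn (fun x => Real.exp (2 * ρ * g x) * f x) B :=
  CC_intB hC ((Real.continuous_exp.comp (continuous_const.mul hg)).mul hf).continuousOn

theorem wI_sum {B : Set (V n)} {ρ : ℝ} {χ χ₁ χ₂ : V n → ℝ} (hC : CC O B ρ χ χ₁ χ₂)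
    {g : V n → ℝ} (hg : Continuous g) {ι : Type*} (u : Finset ι) {f : ι → V n → ℝ}
    (hf : ∀ i, Continuous (f i)) : wI χ g ρ (fun x => ∑ i ∈ u, f i x) = ∑ i ∈ u, wI χ g ρ (f i) := by
  unfold wI
  simp only [Finset.mul_sum]
  exact integral_finsetSum _ fun i _ => wI_int hC hg (hf i)

theorem wB_sum {B : Set (V n)} {ρ : ℝ} {χ χ₁ χ₂ : V n → ℝ} (hC : CC O B ρ χ χ₁ χ₂)
    {g : V n → ℝ} (hg : Continuous g) {ι : Type*} (u : Finset ι) {f : ι → V n → ℝ}
    (hf : ∀ i, Continuous (f i)) : wB B g ρ (fun x => ∑ i ∈ u, f i x) = ∑ i ∈ u, wB B g ρ (f i) := by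
  unfold wB
  simp only [Finset.mul_sum]
  exact integral_finsetSum _ fun i _ => wB_int hC hg (hf i)

theorem wI_mono {B : Set (V n)} {ρ : ℝ} {χ χ₁ χ₂ : V n → ℝ} (hC : CC O B ρ χ χ₁ χ₂)
    {g : V n → ℝ} (hg : Continuous g) {f f' : V n → ℝ} (hf : Continuous f) (hf' : Continuous f')
    (h : ∀ x, f x ≤ f' x) : wI χ g ρ f ≤ wI χ g ρ f' :=
  integral_mono (wI_int hC hg hf) (wI_int hC hg hf') fun x =>
    mul_le_mul_of_nonneg_left (h x) (by positivity)

theorem wB_mono {B : Set (V n)} {ρ : ℝ} {χ χ₁ χ₂ : V n → ℝ} (hC : CC O B ρ χ χ₁ χ₂)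
    {g : V n → ℝ} (hg : Continuous g) {f f' : V n → ℝ} (hf : Continuous f) (hf' : Continuous f')
    (h : ∀ x, f x ≤ f' x) : wB B g ρ f ≤ wB B g ρ f' :=
  integral_mono (wB_int hC hg hf) (wB_int hC hg hf') fun x =>
    mul_le_mul_of_nonneg_left (h x) (by positivity)

theorem wI_add {B : Set (V n)} {ρ : ℝ} {χ χ₁ χ₂ : V n → ℝ} (hC : CC O B ρ χ χ₁ χ₂)
    {g : V n → ℝ} (hg : Continuous g) {f f' : V n → ℝ} (hf : Continuous f) (hf' : Continuous f') :
    wI χ g ρ (fun x => f x + f' x) = wI χ g ρ f + wI χ g ρ f' := by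
  unfold wI
  simp only [mul_add]
  exact integral_add (wI_int hC hg hf) (wI_int hC hg hf')

theorem wI_cmul (χ g : V n → ℝ) (ρ c : ℝ) (f : V n → ℝ) :
    wI χ g ρ (fun x => c * f x) = c * wI χ g ρ f := by
  unfold wI
  rw [← integral_const_mul]
  congr 1
  funext x
  ring

theorem wB_cmul (B : Set (V n)) (g : V n → ℝ) (ρ c : ℝ) (f : V n → ℝ) :
    wB B g ρ (fun x => c * f x) = c * wB B g ρ f := by
  unfold wB
  rw [← integral_const_mul]
  congr 1
  funext x
  ring

/-- The dual test for matrices, for given constants. -/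
theorem dualM {B : Set (V n)} {ρ C : ℝ} {χ χ₁ χ₂ : V n → ℝ} (hC : CC O B ρ χ χ₁ χ₂)
    {s : MF n} (hs : SmM s) {g : V n → ℝ} (hg : Continuous g)
    (H : ∀ (μ f : V n → ℝ) (F : Fin n → V n → ℝ), ContDiffOn ℝ ∞ μ O → ContDiffOn ℝ ∞ f O →
      (∀ j, ContDiffOn ℝ ∞ (F j) O) → (∀ x ∈ O, Ld s μ x = ∑ j, LR.pd j (F j) x + f x) →
      wI χ g ρ (fun x => μ x ^ 2) ≤
        C / ρ * wI χ g ρ (fun x => (∑ j, F j x ^ 2) + f x ^ 2) +
          C * ρ * wB B g ρ (fun x => (∑ j, F j x ^ 2) + μ x ^ 2))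
    {m f : MC n N} {F : Fin n → MC n N} (hm : SmC m) (hf : SmC f) (hF : ∀ j, SmC (F j))
    (heq : ∀ x ∈ O, Lm s m x = ∑ j, pdm j (F j) x + f x) :
    wI χ g ρ (fun x => nq (m x)) ≤
      C / ρ * wI χ g ρ (fun x => (∑ j, nq (F j x)) + nq (f x)) +
        C * ρ * wB B g ρ (fun x => (∑ j, nq (F j x)) + nq (m x)) := by
  have h1 : ∀ p : Fin N × Fin N × Bool, wI χ g ρ (fun x => en p (m x) ^ 2) ≤
      C / ρ * wI χ g ρ (fun x => (∑ j, en p (F j x) ^ 2) + en p (f x) ^ 2) +
        C * ρ * wB B g ρ (fun x => (∑ j, en p (F j x) ^ 2) + en p (m x) ^ 2) := by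
    intro p
    refine H (fun x => en p (m x)) (fun x => en p (f x)) (fun j x => en p (F j x))
      (en_sm p hm).contDiffOn (en_sm p hf).contDiffOn (fun j => (en_sm p (hF j)).contDiffOn)
      fun x hx => ?_
    rw [← en_Lm p hs hm, heq x hx, en_add, en_sum]
    congr 1
    exact Finset.sum_congr rfl fun j _ => (en_pd p (hF j) j x).symm
  have h2 := Finset.sum_le_sum fun p (_ : p ∈ (Finset.univ : Finset (Fin N × Fin N × Bool))) => h1 p
  rw [Finset.sum_add_distrib, ← Finset.mul_sum, ← Finset.mul_sum] at h2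
  have c1 : ∀ p : Fin N × Fin N × Bool, Continuous fun x => en p (m x) ^ 2 := fun p =>
    (en_sm p hm).continuous.pow 2
  have c2 : ∀ p : Fin N × Fin N × Bool, Continuous fun x => (∑ j, en p (F j x) ^ 2) +
      en p (f x) ^ 2 := fun p => (continuous_finsetSum _ fun j _ =>
        (en_sm p (hF j)).continuous.pow 2).add ((en_sm p hf).continuous.pow 2)
  have c3 : ∀ p : Fin N × Fin N × Bool, Continuous fun x => (∑ j, en p (F j x) ^ 2) +
      en p (m x) ^ 2 := fun p => (continuous_finsetSum _ fun j _ =>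
        (en_sm p (hF j)).continuous.pow 2).add ((en_sm p hm).continuous.pow 2)
  rw [← wI_sum hC hg _ c1, ← wI_sum hC hg _ c2, ← wB_sum hC hg _ c3] at h2
  have e1 : ∀ x, ∑ p : Fin N × Fin N × Bool, en p (m x) ^ 2 = nq (m x) := fun x => en_sq _
  have e2 : ∀ x, ∑ p : Fin N × Fin N × Bool, ((∑ j, en p (F j x) ^ 2) + en p (f x) ^ 2) =
      (∑ j, nq (F j x)) + nq (f x) := fun x => by
    rw [Finset.sum_add_distrib, Finset.sum_comm, en_sq]
    congr 1
    exact Finset.sum_congr rfl fun j _ => en_sq _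
  have e3 : ∀ x, ∑ p : Fin N × Fin N × Bool, ((∑ j, en p (F j x) ^ 2) + en p (m x) ^ 2) =
      (∑ j, nq (F j x)) + nq (m x) := fun x => by
    rw [Finset.sum_add_distrib, Finset.sum_comm, en_sq]
    congr 1
    exact Finset.sum_congr rfl fun j _ => en_sq _
  simp only [e1, e2, e3] at h2
  exact h2

end Vale.Agent.P088.S4.H972
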