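import Vale.Agent.P088.R2.H972.XME.Eqn

/-!
# P088, stage 4: row X-ME
-/

open MeasureTheory Set
open scoped ContDiff Matrix

noncomputable section

namespace Vale.Agent.P088.S4.H972

open Vale.Agent.P088.LR Vale.Agent.P088.LR.U Vale.Agent.P088.LR.H158
open Vale.Agent.P088.LR.U.H129 (smC_pdm smC_add smC_sub smC_sum smC_smul pdm_add pdm_sub)
open Vale.Agent.P088.PJ Vale.Agent.P088.R2.H404
open Vale.Agent.P088.PJ.H561 (fn nq_nonneg fn_nonneg fn_sq fn_mul fn_le Qd Fl rst clC_mono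
  clC_add clC_sub clC_mul clC_pdm clC_one fn_of_clC abs_of_cl)

variable {n N : ℕ}

theorem nq_one : nq (1 : Matrix (Fin N) (Fin N) ℂ) = N := by
  unfold nq
  have h : ∀ a : Fin N, ∑ b, ‖(1 : Matrix (Fin N) (Fin N) ℂ) a b‖ ^ 2 = 1 := by
    intro a
    rw [Finset.sum_eq_single a]
    · simp
    · intro b _ hb
      rw [Matrix.one_apply_ne' hb]
      simp
    · intro h
      exact absurd (Finset.mem_univ a) h
  simp [h]

theorem nq_of_clC {k : ℕ} {κ : ℝ} (hκ : 0 ≤ κ) {A : MC n N} (h : ClC k κ A) (x : V n) :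
    nq (A x) ≤ (N * κ) ^ 2 := by
  rw [← fn_sq]
  exact pow_le_pow_left₀ (fn_nonneg _) (fn_of_clC hκ h x) 2

/-- The constant. -/
def cc (n N : ℕ) (C : ℝ) : ℝ :=
  1 + (N * (N * (2 ^ 1 * (2 * (C + 1))))) ^ 2 + (N * 2) ^ 2 + (N * 1) ^ 2 +
    n * (n * (4 * (N * 1) ^ 2)) + 2 * ((N * 1) ^ 2 + N)

/-- The facts for one pair. -/
theorem facts (n N : ℕ) : ∃ C δ₀ : ℝ, 0 < C ∧ 0 < δ₀ ∧ δ₀ ≤ 1 ∧ ∀ δ : ℝ, 0 ≤ δ → δ ≤ δ₀ →
    ∀ (k : ℕ), 2 ≤ k → ∀ (O : Set (V n)) (s : MF n) (P : MC n N) (G : Fin n → MC n N),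
    Da k δ O s P G →
    (∀ x, IsUnit (P x).det) ∧ SmC (fun x => (P x)⁻¹) ∧
    (∀ i, Tm (cc n N C) fun x => (pdm i P x - G i x) * (P x)⁻¹) ∧
    (∀ i, Tm (cc n N C) fun x => (P x)⁻¹ * (pdm i P x + G i x)) ∧
    (∀ x, nq (P x) ≤ cc n N C) ∧ (∀ i x, nq (pdm i P x) ≤ cc n N C) ∧
    (∀ i x, nq (G i x) ≤ cc n N C) ∧ (∀ i x, nq (pdm i P x + G i x) ≤ cc n N C) ∧
    (∀ i j x, |s x i j| ≤ 2) ∧ (∀ i j k x, |pd k (fun y => s y i j) x| ≤ 2) ∧
    (∀ i x, nq (kp s G i x) ≤ cc n N C) := by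
  obtain ⟨C, ε₀, hC, hε, H⟩ := H91.inv n N 1
  refine ⟨C, min ε₀ 1, hC, lt_min hε one_pos, min_le_right _ _, ?_⟩
  intro δ hδ0 hδ k hk O s P G h
  have hδ1 : δ ≤ 1 := hδ.trans (min_le_right _ _)
  have hN0 : (0 : ℝ) ≤ N := Nat.cast_nonneg N
  have hn0 : (0 : ℝ) ≤ n := Nat.cast_nonneg n
  have sm1 : SmC fun _ : V n => (1 : Matrix (Fin N) (Fin N) ℂ) := fun _ _ => contDiff_const
  obtain ⟨hu, hsm, hcl⟩ := H P h.sP δ hδ0 (hδ.trans (min_le_left _ _))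
    (clC_mono h.cP (by omega) le_rfl)
  have hI : ClC 1 (C + 1) (fun x => (P x)⁻¹) := by
    have h2 := clC_add (smC_sub hsm sm1) sm1 hcl clC_one
    simp only [sub_add_cancel] at h2
    refine clC_mono h2 le_rfl ?_
    nlinarith
  have hP1 : ClC 1 2 P := by
    have h1 : ClC 1 δ (fun x => P x - 1) := clC_mono h.cP (by omega) le_rfl
    have h2 := clC_add (smC_sub h.sP sm1) sm1 h1 clC_one
    simp only [sub_add_cancel] at h2
    exact clC_mono h2 le_rfl (by linarith)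
  have hp : ∀ i, ClC 1 1 (pdm i P) := by
    intro i
    have h1 : ClC (1 + 1) δ (fun x => P x - 1) := clC_mono h.cP (by omega) le_rfl
    have h2 := clC_pdm (smC_sub h.sP sm1) h1 i
    have e : pdm i (fun x => P x - 1) = pdm i P := by
      funext x
      rw [pdm_sub h.sP sm1, pdm_const, sub_zero]
    rw [e] at h2
    exact clC_mono h2 le_rfl hδ1
  have hg : ∀ i, ClC 1 1 (G i) := fun i => clC_mono (h.cG i) (by omega) hδ1
  have hA : ∀ i, ClC 1 2 (fun x => pdm i P x - G i x) := fun i =>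
    clC_mono (clC_sub (smC_pdm h.sP i) (h.sG i) (hp i) (hg i)) le_rfl (by norm_num)
  have hB : ∀ i, ClC 1 2 (fun x => pdm i P x + G i x) := fun i =>
    clC_mono (clC_add (smC_pdm h.sP i) (h.sG i) (hp i) (hg i)) le_rfl (by norm_num)
  have hκ : 0 ≤ (N : ℝ) * (2 ^ 1 * (2 * (C + 1))) := by positivity
  have q1 : 0 ≤ (N * (N * (2 ^ 1 * (2 * (C + 1))))) ^ 2 := by positivity
  have q2 : 0 ≤ ((N : ℝ) * 2) ^ 2 := by positivity
  have q3 : 0 ≤ ((N : ℝ) * 1) ^ 2 := by positivity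
  have q4 : 0 ≤ (n : ℝ) * (n * (4 * (N * 1) ^ 2)) := by positivity
  have q5 : 0 ≤ 2 * (((N : ℝ) * 1) ^ 2 + N) := by positivity
  have hs : ∀ i j x, |s x i j| ≤ 2 := by
    intro i j x
    have g1 := abs_of_cl (h.cs i j) x
    have g2 : |(1 : Matrix (Fin n) (Fin n) ℝ) i j| ≤ 1 := by
      rw [Matrix.one_apply]
      split_ifs <;> simp
    have g3 := abs_add_le (s x i j - (1 : Matrix (Fin n) (Fin n) ℝ) i j)
      ((1 : Matrix (Fin n) (Fin n) ℝ) i j)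
    rw [sub_add_cancel] at g3
    linarith
  refine ⟨hu, hsm, fun i => ?_, fun i => ?_, fun x => ?_, fun i x => ?_, fun i x => ?_,
    fun i x => ?_, hs, fun i j l x => ?_, fun i x => ?_⟩
  · refine (Tm.of_clC hκ (SmC_mul (smC_sub (smC_pdm h.sP i) (h.sG i)) hsm)
      (clC_mul (smC_sub (smC_pdm h.sP i) (h.sG i)) hsm (hA i) hI)).mono ?_
    unfold cc
    linarith
  · have e : (N : ℝ) * (2 ^ 1 * ((C + 1) * 2)) = N * (2 ^ 1 * (2 * (C + 1))) := by ring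
    have h3 := clC_mul hsm (smC_add (smC_pdm h.sP i) (h.sG i)) hI (hB i)
    rw [e] at h3
    refine (Tm.of_clC hκ (SmC_mul hsm (smC_add (smC_pdm h.sP i) (h.sG i))) h3).mono ?_
    unfold cc
    linarith
  · refine (nq_of_clC (by norm_num) hP1 x).trans ?_
    unfold cc
    linarith
  · refine (nq_of_clC (by norm_num) (hp i) x).trans ?_
    unfold cc
    linarith
  · refine (nq_of_clC (by norm_num) (hg i) x).trans ?_
    unfold cc
    linarith
  · refine (nq_of_clC (by norm_num) (hB i) x).trans ?_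
    unfold cc
    linarith
  · have hsub : ContDiff ℝ ∞ fun x => s x i j - (1 : Matrix (Fin n) (Fin n) ℝ) i j :=
      (h.ss i j).sub contDiff_const
    have h1 : Cl (0 + 1) δ (fun x => s x i j - (1 : Matrix (Fin n) (Fin n) ℝ) i j) :=
      H535.cl_le (h.cs i j) (by omega) le_rfl
    have h2 := abs_of_cl (Vale.Agent.P088.H159.cl_pdF hsub h1 l) x
    have e : pd l (fun x => s x i j - (1 : Matrix (Fin n) (Fin n) ℝ) i j) x =
        pd l (fun y => s y i j) x := by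
      rw [pd_sub (dfa (h.ss i j) x) (differentiableAt_const _), pd_const, sub_zero]
    rw [e] at h2
    linarith
  · unfold kp
    refine (nq_sumn _).trans ?_
    have g : ∀ j, nq ((s x i j : ℂ) • G j x) ≤ 4 * (N * 1) ^ 2 := by
      intro j
      rw [nq_rsmul]
      have h5 := hs i j x
      have h6 : s x i j ^ 2 ≤ 4 := by
        rw [← sq_abs]
        nlinarith [abs_nonneg (s x i j)]
      exact mul_le_mul h6 (nq_of_clC (by norm_num) (hg j) x) (nq_nonneg _) (by norm_num)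
    have g2 : ∑ j, nq ((s x i j : ℂ) • G j x) ≤ n * (4 * (N * 1) ^ 2) := by
      refine (Finset.sum_le_sum fun j _ => g j).trans (le_of_eq ?_)
      rw [Finset.sum_const, Finset.card_univ, Fintype.card_fin, nsmul_eq_mul]
    refine (mul_le_mul_of_nonneg_left g2 hn0).trans ?_
    unfold cc
    linarith

theorem Tm_add {c c' : ℝ} {A B : MC n N} (hA : Tm c A) (hB : Tm c' B) :
    Tm (2 * (c + c')) (fun x => A x + B x) := by
  refine ⟨smC_add hA.sm hB.sm, fun x => ?_, fun i x => ?_⟩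
  · have h1 := nq_add (A x) (B x)
    have h2 := hA.b0 x
    have h3 := hB.b0 x
    linarith
  · rw [pdm_add hA.sm hB.sm]
    have h1 := nq_add (pdm i A x) (pdm i B x)
    have h2 := hA.b1 i x
    have h3 := hB.b1 i x
    linarith

theorem Tm_const {c : ℝ} {A : Matrix (Fin N) (Fin N) ℂ} (h : nq A ≤ c) :
    Tm c (fun _ : V n => A) := by
  refine ⟨fun _ _ => contDiff_const, fun _ => h, fun i x => ?_⟩
  rw [pdm_const, nq_zero]
  exact (nq_nonneg A).trans h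

theorem pdm_coord (i a : Fin n) (x : V n) :
    pdm i (fun y : V n => ((y a : ℝ) : ℂ) • (1 : Matrix (Fin N) (Fin N) ℂ)) x =
      (if i = a then (1 : Matrix (Fin N) (Fin N) ℂ) else 0) := by
  have hc : ContDiff ℝ ∞ fun y : V n => y a := contDiff_apply ℝ ℝ a
  have e1 : pd i (fun y : V n => y a) x = if i = a then 1 else 0 := by
    have h1 : HasFDerivAt (fun y : V n => y a) (ContinuousLinearMap.proj (R := ℝ) a) x :=
      (ContinuousLinearMap.proj (R := ℝ) (φ := fun _ : Fin n => ℝ) a).hasFDerivAt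
    unfold pd
    rw [h1.fderiv, ContinuousLinearMap.proj_apply, Pi.single_apply]
    simp only [eq_comm]
  have h := pdm_smul hc (P := fun _ : V n => (1 : Matrix (Fin N) (Fin N) ℂ))
    (fun _ _ => contDiff_const) i x
  rw [pdm_const, e1, smul_zero, add_zero] at h
  refine h.trans ?_
  split_ifs <;> simp

/-- The bounds of all coefficients. -/
theorem mkBc (n N : ℕ) : ∃ c δ₀ : ℝ, 1 ≤ c ∧ 0 < δ₀ ∧ δ₀ ≤ 1 ∧ ∀ δ : ℝ, 0 ≤ δ → δ ≤ δ₀ →
    ∀ (k : ℕ), 2 ≤ k → ∀ (O K : Set (V n)) (j₀ : Fin N) (s₁ s₂ : MF n) (P₁ P₂ : MC n N)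
    (G₁ G₂ β Y D : Fin n → MC n N), RL k δ O K j₀ s₁ s₂ P₁ P₂ G₁ G₂ β Y D →
    ∀ Γ : Fin n → Fin n → MC n N, IG k δ Y Γ → Bc c s₁ s₂ P₁ P₂ G₁ G₂ Y Γ := by
  obtain ⟨C, δ₀, hC, hδ₀, hδ1, H⟩ := facts n N
  have hN0 : (0 : ℝ) ≤ N := Nat.cast_nonneg N
  have hn0 : (0 : ℝ) ≤ n := Nat.cast_nonneg n
  have q1 : 0 ≤ (N * (N * (2 ^ 1 * (2 * (C + 1))))) ^ 2 := by positivity
  have q2 : 0 ≤ ((N : ℝ) * 2) ^ 2 := by positivity
  have q3 : 0 ≤ ((N : ℝ) * 1) ^ 2 := by positivity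
  have q4 : 0 ≤ (n : ℝ) * (n * (4 * (N * 1) ^ 2)) := by positivity
  have q5 : 0 ≤ 2 * (((N : ℝ) * 1) ^ 2 + N) := by positivity
  refine ⟨cc n N C, δ₀, by unfold cc; linarith, hδ₀, hδ1, ?_⟩
  intro δ hδ0 hδ k hk O K j₀ s₁ s₂ P₁ P₂ G₁ G₂ β Y D h Γ hΓ
  have hδ1' : δ ≤ 1 := hδ.trans hδ1
  obtain ⟨u1, i1, A1, B1, nP1, np1, ng1, nB1, a1, d1, k1⟩ := H δ hδ0 hδ k hk _ s₁ P₁ G₁ h.d₁
  obtain ⟨u2, i2, A2, B2, nP2, np2, ng2, nB2, a2, d2, k2⟩ := H δ hδ0 hδ k hk _ s₂ P₂ G₂ h.d₂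
  refine ⟨by unfold cc; linarith, fun i j x => (h.d₁.sy x).apply j i,
    fun i j x => (h.d₂.sy x).apply j i, h.d₁.ss, h.d₂.ss, a1, a2, d2, u1, u2, h.d₁.sP, h.d₂.sP,
    i1, i2, h.d₁.sG, h.d₂.sG, h.sY, nP2, np1, fun i a x => ?_, k2, ng1, nB1, A1, B2,
    fun a b => ?_⟩
  · have sx : SmC fun y : V n => ((y a : ℝ) : ℂ) • (1 : Matrix (Fin N) (Fin N) ℂ) :=
      smC_smul (contDiff_apply ℝ ℝ a) fun _ _ => contDiff_const
    have h1 : ClC (0 + 1) 1 (fun x => Y a x - (x a : ℂ) • (1 : Matrix (Fin N) (Fin N) ℂ)) :=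
      clC_mono (h.cY a) (by omega) hδ1'
    have h2 := nq_of_clC (by norm_num) (clC_pdm (smC_sub (h.sY a) sx) h1 i) x
    have e : pdm i (Y a) x = pdm i (fun x => Y a x - (x a : ℂ) • (1 : Matrix (Fin N) (Fin N) ℂ)) x +
        (if i = a then (1 : Matrix (Fin N) (Fin N) ℂ) else 0) := by
      rw [pdm_sub (h.sY a) sx, pdm_coord, sub_add_cancel]
    have h3 : nq (if i = a then (1 : Matrix (Fin N) (Fin N) ℂ) else 0) ≤ N := by
      split_ifs
      · rw [nq_one]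
      · rw [nq_zero]
        exact hN0
    rw [e]
    refine (nq_add _ _).trans ?_
    unfold cc
    linarith
  · have sc : SmC fun _ : V n => (if a = b then (1 : Matrix (Fin N) (Fin N) ℂ) else 0) :=
      fun _ _ => contDiff_const
    have h1 : ClC 1 1 (fun x => Γ a b x - if a = b then 1 else 0) :=
      clC_mono (hΓ.cl a b) (by omega) hδ1'
    have h2 := Tm.of_clC zero_le_one (smC_sub (hΓ.sm a b) sc) h1
    have h3 : nq (if a = b then (1 : Matrix (Fin N) (Fin N) ℂ) else 0) ≤ N := by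
      split_ifs
      · rw [nq_one]
      · rw [nq_zero]
        exact hN0
    have h4 := Tm_add h2 (Tm_const (n := n) h3)
    simp only [sub_add_cancel] at h4
    refine Tm.mono h4 ?_
    unfold cc
    linarith

theorem cM_nn {c : ℝ} (hc : 0 ≤ c) (n : ℕ) : 0 ≤ cM n c := by
  unfold cM cR cQ cE
  positivity

theorem cont_hh {s₁ s₂ : MF n} (h1 : SmM s₁) (h2 : SmM s₂) : Continuous (hh s₁ s₂) :=
  continuous_finsetSum _ fun i _ => continuous_finsetSum _ fun j _ =>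
    ((h2 i j).continuous.sub (h1 i j).continuous).pow 2

theorem cont_d0 {D : Fin n → MC n N} (hD : ∀ a, SmC (D a)) : Continuous (d0 D) :=
  continuous_finsetSum _ fun a _ => cont_nq (hD a)

theorem cont_d1 {D : Fin n → MC n N} (hD : ∀ a, SmC (D a)) : Continuous (d1 D) :=
  continuous_finsetSum _ fun a _ => continuous_finsetSum _ fun i _ => cont_nq (smC_pdm (hD a) i)

theorem RL.mono {k k' : ℕ} {δ δ' : ℝ} {O K : Set (V n)} {j₀ : Fin N} {s₁ s₂ : MF n}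
    {P₁ P₂ : MC n N} {G₁ G₂ β Y D : Fin n → MC n N}
    (h : RL k δ O K j₀ s₁ s₂ P₁ P₂ G₁ G₂ β Y D) (hk : k' ≤ k)
    (hδ : δ ≤ δ') : RL k' δ' O K j₀ s₁ s₂ P₁ P₂ G₁ G₂ β Y D :=
  { h with
    d₁ := { h.d₁ with
      cs := fun i j => H535.cl_le (h.d₁.cs i j) hk hδ
      cP := clC_mono h.d₁.cP hk hδ
      cG := fun i => clC_mono (h.d₁.cG i) hk hδ }
    d₂ := { h.d₂ with
      cs := fun i j => H535.cl_le (h.d₂.cs i j) hk hδ
      cP := clC_mono h.d₂.cP hk hδ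
      cG := fun i => clC_mono (h.d₂.cG i) hk hδ }
    cβ := fun i => clC_mono (h.cβ i) hk hδ
    cY := fun a => clC_mono (h.cY a) hk hδ
    cD := fun a => clC_mono (h.cD a) hk hδ }

theorem IG.mono {k k' : ℕ} {δ δ' : ℝ} {Y : Fin n → MC n N} {Γ : Fin n → Fin n → MC n N}
    (h : IG k δ Y Γ) (hk : k' ≤ k) (hδ : δ ≤ δ') : IG k' δ' Y Γ :=
  { h with cl := fun a b => clC_mono (h.cl a b) hk hδ }

/-- The hypotheses of the dual test. -/
theorem mkWh {k : ℕ} (hk : 2 ≤ k) {δ M c₀ : ℝ} (hδ1 : δ ≤ 1) (hδn : δ ≤ 1 / (8 * (n + 1)))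
    {O O' : Set (V n)} {s : MF n} {P : MC n N} {G : Fin n → MC n N} (h : Da k δ O' s P G)
    {g : V n → ℝ} (hg : WX O M c₀ g) : Wh O M s g := by
  have hsub : ∀ i j, ContDiff ℝ ∞ fun x => s x i j - (1 : Matrix (Fin n) (Fin n) ℝ) i j :=
    fun i j => (h.ss i j).sub contDiff_const
  have e : ∀ l i j, pd l (fun x => s x i j - (1 : Matrix (Fin n) (Fin n) ℝ) i j) =
      pd l (fun y => s y i j) := by
    intro l i j
    funext x
    rw [pd_sub (dfa (h.ss i j) x) (differentiableAt_const _), pd_const, sub_zero]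
  have h2 : ∀ i j, Cl (0 + 1) δ (fun x => s x i j - (1 : Matrix (Fin n) (Fin n) ℝ) i j) :=
    fun i j => H535.cl_le (h.cs i j) (by omega) le_rfl
  have h3 : ∀ l i j, Cl 0 δ (pd l (fun y => s y i j)) := fun l i j => by
    have := Vale.Agent.P088.H159.cl_pdF (hsub i j) (h2 i j) l
    rw [e] at this
    exact this
  exact
    { sm := fun i j => (h.ss i j).contDiffOn
      sy := fun x _ i j => (h.sy x).apply j i
      nr := fun x _ i j => (abs_of_cl (h.cs i j) x).trans hδn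
      s1 := fun x _ l i j => (abs_of_cl (h3 l i j) x).trans hδ1
      gs := hg.gs.contDiffOn
      g1 := hg.g1 }

/-- The difference of the two equations, on `O`. -/
theorem eqd {k : ℕ} {δ : ℝ} {O K : Set (V n)} {j₀ : Fin N} {s₁ s₂ : MF n}
    {P₁ P₂ : MC n N} {G₁ G₂ β Y D : Fin n → MC n N}
    (h : RL k δ O K j₀ s₁ s₂ P₁ P₂ G₁ G₂ β Y D) {x : V n} (hx : x ∈ O) :
    ∑ i, pdm i (Fl s₂ P₂ i) x - ∑ i, pdm i (Fl s₁ P₁ i) x =
      (1 / 2 : ℂ) • (Qd s₂ P₂ G₂ x - Qd s₁ P₁ G₁ x) := by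
  by_cases hK : x ∈ K
  · have h1 := h.d₁.pe x ⟨hx, hK⟩
    have h2 := h.d₂.pe x ⟨hx, hK⟩
    rw [smul_sub]
    exact congrArg₂ (· - ·) h2 h1
  · have hU : IsOpen (O \ K) := h.op.sdiff h.cl
    have hp : ∀ j, ∀ y ∈ O \ K, pdm j P₂ y = pdm j P₁ y := fun j y hy =>
      pdm_congr hU (fun z hz => h.oP z hz.1 hz.2) hy j
    have e1 : ∀ i, pdm i (Fl s₂ P₂ i) x = pdm i (Fl s₁ P₁ i) x := by
      intro i
      refine pdm_congr hU (fun y hy => ?_) ⟨hx, hK⟩ i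
      unfold Fl
      simp only [h.os y hy.1 hy.2, hp _ y hy]
    have e2 : Qd s₂ P₂ G₂ x = Qd s₁ P₁ G₁ x := by
      unfold Qd
      simp only [h.os x hx hK, hp _ x ⟨hx, hK⟩, h.oP x hx hK, h.oG _ x hx hK]
    simp only [e1, e2, sub_self, smul_zero]

/-- **Row X-ME.** -/
theorem rowXME (gi : RowXGI) : RowXME := by
  intro n N _ _ M c₀ C₁ _ _ hC₁
  obtain ⟨kg, δg, hδg, HG⟩ := gi n N
  obtain ⟨c, δf, hc1, hδf, hδf1, HF⟩ := mkBc n N
  have hc0 : 0 ≤ c := by linarith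
  have hn0 : (0 : ℝ) ≤ n := Nat.cast_nonneg n
  obtain ⟨A, hA⟩ : ∃ A, A = cM n c := ⟨_, rfl⟩
  have hA0 : 0 ≤ A := by rw [hA]; exact cM_nn hc0 n
  obtain ⟨C, hCe⟩ : ∃ C, C = cT n M C₁ := ⟨_, rfl⟩
  have hC : 0 < C := by rw [hCe]; exact cT_pos n M hC₁
  refine ⟨max 2 kg, 2 * C * A + 2 * C * (A + 1), min (1 / (8 * (n + 1))) (min δg δf),
    max 1 (2 * C * A), by positivity, by positivity, le_max_left _ _, ?_⟩
  intro O K j₀ s₁ s₂ P₁ P₂ G₁ G₂ β Y D h Γ hΓ g hg ρ hρ hS B χ χ₁ χ₂ hCC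
  have hρ1 : 1 ≤ ρ := (le_max_left _ _).trans hρ
  have hρ0 : 0 < ρ := by linarith
  have l1 : min (1 / (8 * ((n : ℝ) + 1))) (min δg δf) ≤ 1 / (8 * (n + 1)) := min_le_left _ _
  have l2 : min (1 / (8 * ((n : ℝ) + 1))) (min δg δf) ≤ δg :=
    (min_le_right _ _).trans (min_le_left _ _)
  have l3 : min (1 / (8 * ((n : ℝ) + 1))) (min δg δf) ≤ δf :=
    (min_le_right _ _).trans (min_le_right _ _)
  have l0 : 0 ≤ min (1 / (8 * ((n : ℝ) + 1))) (min δg δf) := by positivity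
  have hbc := HF _ l0 l3 (max 2 kg) (le_max_left _ _) O K j₀ s₁ s₂ P₁ P₂ G₁ G₂ β Y D h Γ hΓ
  have hgi := (HG O K j₀ s₁ s₂ P₁ P₂ G₁ G₂ β Y D (RL.mono h (le_max_right _ _) l2) Γ
    (IG.mono hΓ (le_max_right _ _) l2)).1
  have hwh : Wh O M s₂ g := mkWh (le_max_left 2 kg) (l3.trans hδf1) l1 h.d₂ hg
  obtain ⟨F, f, sF, sf, heq, hbd⟩ := Lm_DF (O := O) hbc h.sD hgi fun x hx => eqd h hx
  rw [← hA] at hbd
  have sm : SmC fun y => P₂ y - P₁ y := smC_sub h.d₂.sP h.d₁.sP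
  have hgc : Continuous g := hg.gs.continuous
  have hmain := dualM hCC h.d₂.ss hgc (C := cT n M C₁)
    (fun μ f F hμ hf hF he => dual h.op hC₁ hwh hρ1 hS hCC μ f F hμ hf hF he) sm sf sF heq
  rw [← hCe] at hmain
  have cm := cont_nq sm
  have cU : Continuous (U0 s₁ s₂ P₁ P₂ D) :=
    (((cont_hh h.d₁.ss h.d₂.ss).add cm).add (cont_d0 h.sD)).add (cont_d1 h.sD)
  have cF : Continuous fun x => ∑ j, nq (F j x) := continuous_finsetSum _ fun j _ => cont_nq (sF j)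
  have cR0 : Continuous fun x => hh s₁ s₂ x + d0 D x + d1 D x :=
    ((cont_hh h.d₁.ss h.d₂.ss).add (cont_d0 h.sD)).add (cont_d1 h.sD)
  have b1 : wI χ g ρ (fun x => (∑ j, nq (F j x)) + nq (f x)) ≤
      A * (wI χ g ρ (fun x => hh s₁ s₂ x + d0 D x + d1 D x) +
        wI χ g ρ (fun x => nq (P₂ x - P₁ x))) := by
    rw [← wI_add hCC hgc cR0 cm, ← wI_cmul]
    refine wI_mono hCC hgc (cF.add (cont_nq sf)) (continuous_const.mul (cR0.add cm)) fun x => ?_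
    refine (hbd x).trans (le_of_eq ?_)
    unfold U0
    ring
  have b2 : wB B g ρ (fun x => (∑ j, nq (F j x)) + nq (P₂ x - P₁ x)) ≤
      (A + 1) * wB B g ρ (U0 s₁ s₂ P₁ P₂ D) := by
    rw [← wB_cmul]
    refine wB_mono hCC hgc (cF.add cm) (continuous_const.mul cU) fun x => ?_
    have g1 := hbd x
    have g2 := nq_nonneg (f x)
    have g3 := m_le (s₁ := s₁) (s₂ := s₂) (P₁ := P₁) (P₂ := P₂) (D := D) x
    linarith
  set W := wI χ g ρ (fun x => nq (P₂ x - P₁ x)) with hW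
  set I := wI χ g ρ (fun x => hh s₁ s₂ x + d0 D x + d1 D x) with hI
  set J := wB B g ρ (U0 s₁ s₂ P₁ P₂ D) with hJ
  have hW0 : 0 ≤ W := integral_nonneg fun x => by
    have := nq_nonneg (P₂ x - P₁ x)
    positivity
  have hI0 : 0 ≤ I := integral_nonneg fun x => by
    have := hh_nn (s₁ := s₁) (s₂ := s₂) x
    have := d0_nn (D := D) x
    have := d1_nn (D := D) x
    positivity
  have hJ0 : 0 ≤ J := setIntegral_nonneg hCC.mB fun x _ => by
    have := U0_nn (s₁ := s₁) (s₂ := s₂) (P₁ := P₁) (P₂ := P₂) (D := D) x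
    positivity
  have p1 : C / ρ * wI χ g ρ (fun x => (∑ j, nq (F j x)) + nq (f x)) ≤ C / ρ * (A * (I + W)) :=
    mul_le_mul_of_nonneg_left b1 (by positivity)
  have p2 : C * ρ * wB B g ρ (fun x => (∑ j, nq (F j x)) + nq (P₂ x - P₁ x)) ≤
      C * ρ * ((A + 1) * J) := mul_le_mul_of_nonneg_left b2 (by positivity)
  have p3 : W ≤ C / ρ * (A * (I + W)) + C * ρ * ((A + 1) * J) := by linarith
  have p4 : C / ρ * (A * W) ≤ 1 / 2 * W := by
    have : C / ρ * A ≤ 1 / 2 := by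
      rw [div_mul_eq_mul_div, div_le_iff₀ hρ0]
      have := (le_max_right 1 (2 * C * A)).trans hρ
      linarith
    have := mul_le_mul_of_nonneg_right this hW0
    linarith
  have p5 : C / ρ * (A * (I + W)) = C / ρ * (A * I) + C / ρ * (A * W) := by ring
  have p6 : W ≤ 2 * (C / ρ * (A * I)) + 2 * (C * ρ * ((A + 1) * J)) := by linarith
  refine p6.trans ?_
  have r1 : 2 * (C / ρ * (A * I)) ≤ (2 * C * A + 2 * C * (A + 1)) / ρ * I := by
    have e : 2 * (C / ρ * (A * I)) = (2 * C * A) / ρ * I := by ring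
    rw [e]
    refine mul_le_mul_of_nonneg_right (div_le_div_of_nonneg_right ?_ hρ0.le) hI0
    have : 0 ≤ 2 * C * (A + 1) := by positivity
    linarith
  have r2 : 2 * (C * ρ * ((A + 1) * J)) ≤ (2 * C * A + 2 * C * (A + 1)) * ρ ^ 6 * J := by
    have e : 2 * (C * ρ * ((A + 1) * J)) = (2 * C * (A + 1)) * ρ * J := by ring
    rw [e]
    refine mul_le_mul_of_nonneg_right ?_ hJ0
    have g1 : ρ ≤ ρ ^ 6 := le_self_pow₀ hρ1 (by norm_num)
    have g2 : 0 ≤ 2 * C * A := by positivity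
    exact mul_le_mul (by linarith) g1 hρ0.le (by positivity)
  exact add_le_add r1 r2

end Vale.Agent.P088.S4.H972
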