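import Vale.Agent.P088.R2.H972.XME.Dual

/-!
# P088, stage 4, row X-ME: the dual solution with its weighted bounds
-/

open MeasureTheory Set
open scoped ContDiff Matrix

noncomputable section

namespace Vale.Agent.P088.S4.H972

open Vale.Agent.P088.LR Vale.Agent.P088.R2.H404

variable {n : ℕ} {O : Set (V n)}

theorem setInt_TO {f : V n → ℝ} (hf : TO O f) : ∫ x in O, f x = ∫ x, f x :=
  setIntegral_eq_integral_of_forall_compl_eq_zero fun _ hx => hf.zero hx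

theorem exp_sq (a : ℝ) : Real.exp (-a) * Real.exp (-a) = Real.exp (-(2 * a)) := by
  rw [← Real.exp_add]
  congr 1
  ring

/-- The weighted cut-off. -/
def zt (ρ : ℝ) (g η : V n → ℝ) (x : V n) : ℝ := Real.exp (-ρ * g x) * η x

theorem zt_TO (hO : IsOpen O) {g η : V n → ℝ} (hg : ContDiffOn ℝ ∞ g O) (hη : TO O η) (ρ : ℝ) :
    TO O (zt ρ g η) := TO.mul hO (exp_cdo hg (-ρ)) hη

theorem zt_sq (ρ : ℝ) (g η : V n → ℝ) (x : V n) :
    zt ρ g η x * zt ρ g η x = Real.exp (-(2 * ρ * g x)) * (η x * η x) := by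
  have h := exp_sq (ρ * g x)
  have e1 : -ρ * g x = -(ρ * g x) := by ring
  have e2 : 2 * ρ * g x = 2 * (ρ * g x) := by ring
  unfold zt
  rw [e2, ← h, e1]
  ring

theorem gq_zt (hO : IsOpen O) {g η : V n → ℝ} (hg : ContDiffOn ℝ ∞ g O) (hη : TO O η) (ρ : ℝ)
    {x : V n} (hx : x ∈ O) : gq (zt ρ g η) x ≤
      Real.exp (-(2 * ρ * g x)) * (2 * gq η x + 2 * (ρ ^ 2 * (η x ^ 2 * gq g x))) := by
  have h1 : ∀ i, LR.pd i (zt ρ g η) x =
      Real.exp (-ρ * g x) * (LR.pd i η x - ρ * η x * LR.pd i g x) := by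
    intro i
    have e : zt ρ g η = fun y => Real.exp (-ρ * g y) * η y := rfl
    rw [e, pd_mul' hO (exp_cdo hg (-ρ)) hη.con hx i, pd_exp' hO hg (-ρ) hx i]
    ring
  have h2 := exp_sq (ρ * g x)
  have e1 : -ρ * g x = -(ρ * g x) := by ring
  have e2 : 2 * ρ * g x = 2 * (ρ * g x) := by ring
  have h3 : gq (zt ρ g η) x = Real.exp (-(2 * ρ * g x)) *
      ∑ i, (LR.pd i η x - ρ * η x * LR.pd i g x) ^ 2 := by
    unfold gq
    simp only [h1, mul_pow]
    rw [← Finset.mul_sum, e2, ← h2, e1, sq]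
  rw [h3]
  refine mul_le_mul_of_nonneg_left ?_ (Real.exp_pos _).le
  unfold gq
  simp only [Finset.mul_sum]
  rw [← Finset.sum_add_distrib]
  refine Finset.sum_le_sum fun i _ => ?_
  nlinarith [sq_nonneg (LR.pd i η x + ρ * η x * LR.pd i g x)]

theorem gq_le {f : V n → ℝ} {x : V n} {B : ℝ} (h : ∀ i, |LR.pd i f x| ≤ B) :
    gq f x ≤ n * B ^ 2 := by
  unfold gq
  calc ∑ i, LR.pd i f x ^ 2 ≤ ∑ _i : Fin n, B ^ 2 := by
        refine Finset.sum_le_sum fun i _ => ?_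
        rw [← sq_abs]
        exact pow_le_pow_left₀ (abs_nonneg _) (h i) 2
    _ = n * B ^ 2 := by simp

/-- The hypotheses on the tensor and on the weight. -/
structure Wh (O : Set (V n)) (M : ℝ) (s : MF n) (g : V n → ℝ) : Prop where
  sm : SmO O s
  sy : ∀ x ∈ O, ∀ i j, s x i j = s x j i
  nr : Nr O s
  s1 : ∀ x ∈ O, ∀ k i j, |LR.pd k (fun y => s y i j) x| ≤ 1
  gs : ContDiffOn ℝ ∞ g O
  g1 : ∀ x ∈ O, ∀ i, |LR.pd i g x| ≤ M

/-- The constant of the dual solution. -/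
def cS (n : ℕ) (M D : ℝ) : ℝ := (128 * n * (1 + M ^ 2) + 2) * D + 2 + D

theorem cS_pos (n : ℕ) (M : ℝ) {D : ℝ} (hD0 : 0 < D) : 0 < cS n M D := by
  unfold cS
  positivity

/-- **The dual solution.** -/
theorem sol (hO : IsOpen O) {M D ρ : ℝ} (hD0 : 0 < D) {s : MF n} {g : V n → ℝ}
    (h : Wh O M s g) (hρ1 : 1 ≤ ρ) (hS : SlD O s g ρ (D / ρ ^ 3)) {χ η : V n → ℝ}
    (hχ : TO O χ) (hη : TO O η) (hη1 : ∀ x, |η x| ≤ 1) (hηρ : ∀ i x, |LR.pd i η x| ≤ ρ)
    {μ : V n → ℝ} (hμ : ContDiffOn ℝ ∞ μ O) :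
      ∃ z : V n → ℝ, ContDiffOn ℝ ∞ z O ∧
        (∀ x ∈ O, Ld s z x = μ x * χ x * Real.exp (2 * ρ * g x)) ∧
        IntegrableOn (fun x => z x ^ 2 * Real.exp (-(2 * ρ * g x))) O ∧
        ∫ x in O, z x ^ 2 * Real.exp (-(2 * ρ * g x)) ≤
          cS n M D / ρ ^ 3 * wI χ g ρ (fun x => μ x ^ 2) ∧
        ∫ x, gq z x * (Real.exp (-(2 * ρ * g x)) * (η x * η x)) ≤
          cS n M D / ρ * wI χ g ρ (fun x => μ x ^ 2) := by
  have hn0 : (0 : ℝ) ≤ n := Nat.cast_nonneg n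
  have hρ0 : 0 < ρ := by linarith
  have hnr : Nr O s := h.nr
  have hE : ContDiffOn ℝ ∞ (fun x => Real.exp (2 * ρ * g x)) O := exp_cdo h.gs (2 * ρ)
  have tF : TO O fun x => μ x * χ x * Real.exp (2 * ρ * g x) :=
    TO.mul' hO (TO.mul hO hμ hχ) hE
  have tW : TO O fun x => (μ x * μ x * Real.exp (2 * ρ * g x)) * (χ x * χ x) :=
    TO.mul hO ((hμ.mul hμ).mul hE) (TO.mul hO hχ.con hχ)
  have eW : ∀ x, (μ x * χ x * Real.exp (2 * ρ * g x)) ^ 2 * Real.exp (-(2 * ρ * g x)) =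
      (μ x * μ x * Real.exp (2 * ρ * g x)) * (χ x * χ x) := by
    intro x
    have h1 : Real.exp (2 * ρ * g x) * Real.exp (-(2 * ρ * g x)) = 1 := by
      rw [← Real.exp_add, add_neg_cancel, Real.exp_zero]
    linear_combination (μ x ^ 2 * χ x ^ 2 * Real.exp (2 * ρ * g x)) * h1
  have eI : ∀ x, (μ x * μ x * Real.exp (2 * ρ * g x)) * (χ x * χ x) =
      χ x ^ 2 * Real.exp (2 * ρ * g x) * μ x ^ 2 := fun x => by ring
  have eW1 : ∫ x in O, (μ x * χ x * Real.exp (2 * ρ * g x)) ^ 2 * Real.exp (-(2 * ρ * g x)) =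
      wI χ g ρ (fun x => μ x ^ 2) := by
    simp only [eW]
    rw [setInt_TO tW]
    simp only [eI]
    rfl
  set W : ℝ := wI χ g ρ (fun x => μ x ^ 2) with hW
  have hW0 : 0 ≤ W := integral_nonneg fun x => by positivity
  obtain ⟨z, hz, hLz, hiz, hbz⟩ := hS _ tF.sm tF.cs tF.ts
  rw [eW1] at hbz
  refine ⟨z, hz, hLz, hiz, ?_, ?_⟩
  · refine hbz.trans (mul_le_mul_of_nonneg_right ?_ hW0)
    refine div_le_div_of_nonneg_right ?_ (by positivity)
    have : 0 ≤ (128 * n * (1 + M ^ 2) + 2) * D + 2 := by positivity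
    unfold cS
    linarith
  · have hζ := zt_TO hO h.gs hη ρ
    have hc1 := cac hO h.sm hnr hζ hz hρ0
    have hzz : TO O fun x => zt ρ g η x * zt ρ g η x := TO.mul hO hζ.con hζ
    have hL := Ld_cdo hO h.sm hz
    have t4 : TO O fun x => 64 * ((z x * z x) * gq (zt ρ g η) x) +
      2 * ρ * ((z x * z x) * (zt ρ g η x * zt ρ g η x)) +
      2 * ρ⁻¹ * ((Ld s z x * Ld s z x) * (zt ρ g η x * zt ρ g η x)) :=
      (((TO.mul hO (hz.mul hz) (gq_TO hO hζ)).const_mul 64).add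
        ((TO.mul hO (hz.mul hz) hzz).const_mul (2 * ρ))).add
        ((TO.mul hO (hL.mul hL) hzz).const_mul (2 * ρ⁻¹))
    have e0 : ∫ x, gq z x * (Real.exp (-(2 * ρ * g x)) * (η x * η x)) =
        ∫ x, gq z x * (zt ρ g η x * zt ρ g η x) := by
      simp only [zt_sq]
    rw [e0]
    refine hc1.trans ?_
    rw [← setInt_TO t4]
    have b1 : ∫ x in O, (64 * ((z x * z x) * gq (zt ρ g η) x) +
        2 * ρ * ((z x * z x) * (zt ρ g η x * zt ρ g η x)) +
        2 * ρ⁻¹ * ((Ld s z x * Ld s z x) * (zt ρ g η x * zt ρ g η x))) ≤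
        ∫ x in O, ((128 * n * (1 + M ^ 2) + 2) * ρ ^ 2 * (z x ^ 2 * Real.exp (-(2 * ρ * g x))) +
          2 * ρ⁻¹ * ((μ x * μ x * Real.exp (2 * ρ * g x)) * (χ x * χ x))) := by
      refine setIntegral_mono_on t4.integrable.integrableOn
        ((hiz.const_mul _).add (tW.integrable.integrableOn.const_mul _)) hO.measurableSet
        fun x hx => ?_
      have k1 := gq_zt hO h.gs hη ρ hx
      have k2 : gq η x ≤ n * ρ ^ 2 := gq_le fun i => hηρ i x
      have k3 : gq g x ≤ n * M ^ 2 := gq_le fun i => h.g1 x hx i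
      have k4 : η x ^ 2 ≤ 1 := by
        rw [← sq_abs]
        exact pow_le_one₀ (abs_nonneg _) (hη1 x)
      have k5 : η x ^ 2 * gq g x ≤ n * M ^ 2 := by
        have := mul_le_mul k4 k3 (gq_nn g x) zero_le_one
        linarith
      have k6 := zt_sq ρ g η x
      have k7 : zt ρ g η x * zt ρ g η x ≤ Real.exp (-(2 * ρ * g x)) := by
        rw [k6]
        have := mul_le_mul_of_nonneg_left k4 (Real.exp_pos (-(2 * ρ * g x))).le
        rw [mul_one] at this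
        calc _ = Real.exp (-(2 * ρ * g x)) * η x ^ 2 := by ring
          _ ≤ _ := this
      have k8 : gq (zt ρ g η) x ≤ Real.exp (-(2 * ρ * g x)) * (2 * n * (1 + M ^ 2) * ρ ^ 2) := by
        refine k1.trans (mul_le_mul_of_nonneg_left ?_ (Real.exp_pos _).le)
        have : ρ ^ 2 * (η x ^ 2 * gq g x) ≤ ρ ^ 2 * (n * M ^ 2) :=
          mul_le_mul_of_nonneg_left k5 (sq_nonneg _)
        linarith
      have p1 : (z x * z x) * gq (zt ρ g η) x ≤ 
          (z x * z x) * (Real.exp (-(2 * ρ * g x)) * (2 * n * (1 + M ^ 2) * ρ ^ 2)) :=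
        mul_le_mul_of_nonneg_left k8 (mul_self_nonneg _)
      have p2 : (z x * z x) * (zt ρ g η x * zt ρ g η x) ≤
          (z x * z x) * Real.exp (-(2 * ρ * g x)) :=
        mul_le_mul_of_nonneg_left k7 (mul_self_nonneg _)
      have p3 : (Ld s z x * Ld s z x) * (zt ρ g η x * zt ρ g η x) ≤
          (μ x * μ x * Real.exp (2 * ρ * g x)) * (χ x * χ x) := by
        rw [← eW x, hLz x hx]
        have := mul_le_mul_of_nonneg_left k7
          (sq_nonneg (μ x * χ x * Real.exp (2 * ρ * g x)))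
        rw [sq] at this ⊢
        exact this
      have p4 : 2 * ρ⁻¹ * ((Ld s z x * Ld s z x) * (zt ρ g η x * zt ρ g η x)) ≤
          2 * ρ⁻¹ * ((μ x * μ x * Real.exp (2 * ρ * g x)) * (χ x * χ x)) :=
        mul_le_mul_of_nonneg_left p3 (by positivity)
      have p5 : 2 * ρ * ((z x * z x) * (zt ρ g η x * zt ρ g η x)) ≤
          2 * ρ ^ 2 * ((z x * z x) * Real.exp (-(2 * ρ * g x))) := by
        refine mul_le_mul ?_ p2 ?_ (by positivity)
        · nlinarith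
        · exact mul_nonneg (mul_self_nonneg _) (mul_self_nonneg _)
      have e9 : (128 * n * (1 + M ^ 2) + 2) * ρ ^ 2 * (z x ^ 2 * Real.exp (-(2 * ρ * g x))) =
          64 * ((z x * z x) * (Real.exp (-(2 * ρ * g x)) * (2 * n * (1 + M ^ 2) * ρ ^ 2))) +
          2 * ρ ^ 2 * ((z x * z x) * Real.exp (-(2 * ρ * g x))) := by ring
      rw [e9]
      linarith
    refine b1.trans ?_
    rw [integral_add (hiz.const_mul _) (tW.integrable.integrableOn.const_mul _),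
      integral_const_mul, integral_const_mul, setInt_TO tW]
    simp only [eI]
    have eWW : ∫ x, χ x ^ 2 * Real.exp (2 * ρ * g x) * μ x ^ 2 = W := rfl
    rw [eWW]
    have q1 : (128 * n * (1 + M ^ 2) + 2) * ρ ^ 2 *
        ∫ x in O, z x ^ 2 * Real.exp (-(2 * ρ * g x)) ≤
        (128 * n * (1 + M ^ 2) + 2) * ρ ^ 2 * (D / ρ ^ 3 * W) :=
      mul_le_mul_of_nonneg_left hbz (by positivity)
    have q2 : (128 * n * (1 + M ^ 2) + 2) * ρ ^ 2 * (D / ρ ^ 3 * W) + 2 * ρ⁻¹ * W =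
        ((128 * n * (1 + M ^ 2) + 2) * D + 2) / ρ * W := by
      field_simp
    have q3 : ((128 * n * (1 + M ^ 2) + 2) * D + 2) / ρ * W ≤ cS n M D / ρ * W := by
      refine mul_le_mul_of_nonneg_right (div_le_div_of_nonneg_right ?_ hρ0.le) hW0
      unfold cS
      linarith
    linarith

end Vale.Agent.P088.S4.H972
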