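import Vale.Agent.P088.R2.H972.XME.Sol

/-!
# P088, stage 4, row X-ME: the dual test
-/

open MeasureTheory Set
open scoped ContDiff Matrix

noncomputable section

namespace Vale.Agent.P088.S4.H972

open Vale.Agent.P088.LR Vale.Agent.P088.R2.H404

variable {n : ℕ} {O : Set (V n)}

/-- The pointwise form of the test identity is a divergence. -/
theorem test_id (hO : IsOpen O) {s : MF n} (hs : SmO O s) (hsy : ∀ x ∈ O, ∀ i j, s x i j = s x j i)
    {χ μ z f : V n → ℝ} {F : Fin n → V n → ℝ} (hχ : TO O χ) (hμ : ContDiffOn ℝ ∞ μ O)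
    (hz : ContDiffOn ℝ ∞ z O) (hF : ∀ j, ContDiffOn ℝ ∞ (F j) O) (hf : ContDiffOn ℝ ∞ f O)
    (heq : ∀ x ∈ O, Ld s μ x = ∑ j, LR.pd j (F j) x + f x) :
    ∫ x, (μ x * Ld s z x) * χ x = ∫ x, ((z x * f x) * χ x - (∑ i, F i x * LR.pd i z x) * χ x -
      2 * (μ x * ∑ i, fl s z i x * LR.pd i χ x) - z x * (∑ i, F i x * LR.pd i χ x) -
      (z x * μ x) * Ld s χ x) := by
  have hLz := Ld_cdo hO hs hz
  have tΦ : ∀ i, TO O fun x => (μ x * fl s z i x - z x * fl s μ i x + z x * F i x) * χ x :=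
    fun i => TO.mul hO (((hμ.mul (fl_cdo hO hs hz i)).sub (hz.mul (fl_cdo hO hs hμ i))).add
      (hz.mul (hF i))) hχ
  have tΨ : ∀ i, TO O fun x => (z x * μ x) * fl s χ i x := fun i =>
    TO.mul hO (hz.mul hμ) (fl_TO hO hs hχ i)
  have t0 : TO O fun x => (μ x * Ld s z x) * χ x := TO.mul hO (hμ.mul hLz) hχ
  have hFz : ContDiffOn ℝ ∞ (fun x => ∑ i, F i x * LR.pd i z x) O :=
    ContDiffOn.sum fun i _ => (hF i).mul (pd_cdo hO hz i)
  have tFχ : TO O fun x => ∑ i, F i x * LR.pd i χ x :=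
    TO.sum _ fun i _ => TO.mul hO (hF i) (hχ.pd i)
  have t1 : TO O fun x => (z x * f x) * χ x - (∑ i, F i x * LR.pd i z x) * χ x -
      2 * (μ x * ∑ i, fl s z i x * LR.pd i χ x) - z x * (∑ i, F i x * LR.pd i χ x) -
      (z x * μ x) * Ld s χ x :=
    ((((TO.mul hO (hz.mul hf) hχ).sub (TO.mul hO hFz hχ)).sub
      ((TO.mul hO hμ (fls_TO hO hs hz hχ)).const_mul 2)).sub (TO.mul hO hz tFχ)).sub
      (TO.mul hO (hz.mul hμ) (Ld_TO hO hs hχ))
  have tS : TO O fun x => (∑ i, LR.pd i (fun y => (μ y * fl s z i y - z y * fl s μ i y +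
      z y * F i y) * χ y) x) + ∑ i, LR.pd i (fun y => (z y * μ y) * fl s χ i y) x :=
    (TO.sum _ fun i _ => (tΦ i).pd i).add (TO.sum _ fun i _ => (tΨ i).pd i)
  have e : ∀ x, (μ x * Ld s z x) * χ x = ((z x * f x) * χ x - (∑ i, F i x * LR.pd i z x) * χ x -
      2 * (μ x * ∑ i, fl s z i x * LR.pd i χ x) - z x * (∑ i, F i x * LR.pd i χ x) -
      (z x * μ x) * Ld s χ x) + ((∑ i, LR.pd i (fun y => (μ y * fl s z i y - z y * fl s μ i y +
      z y * F i y) * χ y) x) + ∑ i, LR.pd i (fun y => (z y * μ y) * fl s χ i y) x) := by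
    refine TO.congr_all t0 (t1.add tS) fun x hx => ?_
    have h1 : ∀ i, LR.pd i (fun y => (μ y * fl s z i y - z y * fl s μ i y +
        z y * F i y) * χ y) x = (LR.pd i μ x * fl s z i x + μ x * LR.pd i (fl s z i) x -
        LR.pd i z x * fl s μ i x - z x * LR.pd i (fl s μ i) x + LR.pd i z x * F i x +
        z x * LR.pd i (F i) x) * χ x +
        (μ x * fl s z i x - z x * fl s μ i x + z x * F i x) * LR.pd i χ x := by
      intro i
      have a1 := hμ.mul (fl_cdo hO hs hz i)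
      have a2 := hz.mul (fl_cdo hO hs hμ i)
      have a3 := hz.mul (hF i)
      have e0 : (fun y => μ y * fl s z i y - z y * fl s μ i y + z y * F i y) =
          fun y => (μ y * fl s z i y + (-1) * (z y * fl s μ i y)) + z y * F i y := by
        funext y
        ring
      have e1 : LR.pd i (fun y => μ y * fl s z i y - z y * fl s μ i y + z y * F i y) x =
          LR.pd i μ x * fl s z i x + μ x * LR.pd i (fl s z i) x -
          LR.pd i z x * fl s μ i x - z x * LR.pd i (fl s μ i) x + LR.pd i z x * F i x +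
          z x * LR.pd i (F i) x := by
        rw [e0, pd_add' hO (a1.add (contDiffOn_const.mul a2)) a3 hx i,
          pd_add' hO a1 (contDiffOn_const.mul a2) hx i, pd_cmul' hO (-1) a2 hx i,
          pd_mul' hO hμ (fl_cdo hO hs hz i) hx i, pd_mul' hO hz (fl_cdo hO hs hμ i) hx i,
          pd_mul' hO hz (hF i) hx i]
        ring
      rw [pd_mul' hO ((a1.sub a2).add a3) hχ.con hx i, e1]
    have h2 : ∀ i, LR.pd i (fun y => (z y * μ y) * fl s χ i y) x =
        (LR.pd i z x * μ x + z x * LR.pd i μ x) * fl s χ i x +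
        (z x * μ x) * LR.pd i (fl s χ i) x := by
      intro i
      rw [pd_mul' hO (hz.mul hμ) (fl_cdo hO hs hχ.con i) hx i, pd_mul' hO hz hμ hx i]
    simp only [h1, h2]
    have s1 := fl_symm (hsy x hx) z μ
    have s2 := fl_symm (hsy x hx) χ z
    have s3 := fl_symm (hsy x hx) χ μ
    have hq := heq x hx
    have d1 : ∑ i, LR.pd i (fl s z i) x = Ld s z x := rfl
    have d2 : ∑ i, LR.pd i (fl s μ i) x = Ld s μ x := rfl
    have d3 : ∑ i, LR.pd i (fl s χ i) x = Ld s χ x := rfl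
    have g1 : ∑ i, ((LR.pd i μ x * fl s z i x + μ x * LR.pd i (fl s z i) x -
        LR.pd i z x * fl s μ i x - z x * LR.pd i (fl s μ i) x + LR.pd i z x * F i x +
        z x * LR.pd i (F i) x) * χ x +
        (μ x * fl s z i x - z x * fl s μ i x + z x * F i x) * LR.pd i χ x) =
        (∑ i, fl s z i x * LR.pd i μ x) * χ x + μ x * (∑ i, LR.pd i (fl s z i) x) * χ x -
        (∑ i, fl s μ i x * LR.pd i z x) * χ x - z x * (∑ i, LR.pd i (fl s μ i) x) * χ x +
        (∑ i, F i x * LR.pd i z x) * χ x + z x * (∑ i, LR.pd i (F i) x) * χ x +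
        μ x * (∑ i, fl s z i x * LR.pd i χ x) - z x * (∑ i, fl s μ i x * LR.pd i χ x) +
        z x * (∑ i, F i x * LR.pd i χ x) := by
      simp only [Finset.mul_sum, Finset.sum_mul, ← Finset.sum_add_distrib,
        ← Finset.sum_sub_distrib]
      exact Finset.sum_congr rfl fun i _ => by ring
    have g2 : ∑ i, ((LR.pd i z x * μ x + z x * LR.pd i μ x) * fl s χ i x +
        (z x * μ x) * LR.pd i (fl s χ i) x) =
        μ x * (∑ i, fl s χ i x * LR.pd i z x) + z x * (∑ i, fl s χ i x * LR.pd i μ x) +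
        (z x * μ x) * ∑ i, LR.pd i (fl s χ i) x := by
      simp only [Finset.mul_sum, ← Finset.sum_add_distrib]
      exact Finset.sum_congr rfl fun i _ => by ring
    rw [g1, g2, d1, d2, d3, s1, s2, s3, hq]
    ring
  simp only [e]
  rw [integral_add t1.integrable tS.integrable]
  have z1 : ∫ x, ((∑ i, LR.pd i (fun y => (μ y * fl s z i y - z y * fl s μ i y +
      z y * F i y) * χ y) x) + ∑ i, LR.pd i (fun y => (z y * μ y) * fl s χ i y) x) = 0 := by
    rw [integral_add (TO.sum _ fun i _ => (tΦ i).pd i).integrable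
      (TO.sum _ fun i _ => (tΨ i).pd i).integrable,
      integral_finsetSum _ fun i _ => ((tΦ i).pd i).integrable,
      integral_finsetSum _ fun i _ => ((tΨ i).pd i).integrable,
      Finset.sum_eq_zero fun i _ => int_pd (tΦ i) i, Finset.sum_eq_zero fun i _ => int_pd (tΨ i) i,
      add_zero]
  rw [z1, add_zero]

theorem young {a b t E E' : ℝ} (ht : 0 < t) (hE : 0 < E) (hEE : E * E' = 1) :
    a * b ≤ 1 / 2 * (t * (a ^ 2 * E)) + 1 / 2 * (t⁻¹ * (b ^ 2 * E')) := by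
  have hE' : 0 < E' := by
    by_contra h
    push Not at h
    nlinarith
  have h1 : 0 ≤ (t * E) * (a - t⁻¹ * E' * b) ^ 2 := by positivity
  have h2 : (t * E) * (a - t⁻¹ * E' * b) ^ 2 = t * (a ^ 2 * E) - 2 * (a * b) * (E * E') +
      t⁻¹ * (b ^ 2 * E') * (E * E') := by
    field_simp
    ring
  rw [h2, hEE] at h1
  linarith

theorem cs1 (a b : Fin n → ℝ) : (∑ i, a i * b i) ^ 2 ≤ (∑ i, a i ^ 2) * ∑ i, b i ^ 2 :=
  Finset.sum_mul_sq_le_sq_mul_sq Finset.univ a b

theorem Ld_bd (hO : IsOpen O) {s : MF n} (hs : SmO O s) {χ : V n → ℝ} (hχ : TO O χ) {ρ : ℝ}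
    (hρ : 1 ≤ ρ) {x : V n} (hx : x ∈ O) (h0 : ∀ i j, |s x i j| ≤ 2)
    (h1 : ∀ k i j, |LR.pd k (fun y => s y i j) x| ≤ 1) (c1 : ∀ k, |LR.pd k χ x| ≤ ρ)
    (c2 : ∀ k l, |LR.pd k (LR.pd l χ) x| ≤ ρ ^ 2) : |Ld s χ x| ≤ 3 * n ^ 2 * ρ ^ 2 := by
  have e : ∀ i, LR.pd i (fl s χ i) x =
      ∑ j, (LR.pd i (fun y => s y i j) x * LR.pd j χ x + s x i j * LR.pd i (LR.pd j χ) x) :=
    fun i => pd_fl hO hs hχ.con hx i i
  have h3 : ∀ i j, |LR.pd i (fun y => s y i j) x * LR.pd j χ x +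
      s x i j * LR.pd i (LR.pd j χ) x| ≤ 3 * ρ ^ 2 := by
    intro i j
    have a1 : |LR.pd i (fun y => s y i j) x * LR.pd j χ x| ≤ 1 * ρ := by
      rw [abs_mul]
      exact mul_le_mul (h1 i i j) (c1 j) (abs_nonneg _) zero_le_one
    have a2 : |s x i j * LR.pd i (LR.pd j χ) x| ≤ 2 * ρ ^ 2 := by
      rw [abs_mul]
      exact mul_le_mul (h0 i j) (c2 i j) (abs_nonneg _) (by norm_num)
    have a3 := abs_add_le (LR.pd i (fun y => s y i j) x * LR.pd j χ x)
      (s x i j * LR.pd i (LR.pd j χ) x)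
    nlinarith
  have h4 := abs_sum2_le h3
  unfold Ld
  simp only [e]
  refine h4.trans (le_of_eq ?_)
  ring

end Vale.Agent.P088.S4.H972
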